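import Mathlib
import Vale.Agent.H70.P137.Setting
import Vale.Agent.H70.P137.Defs

/-!
# P137, block-decreasing functions in the plane: definitions

`BlockAnti u`: `u y ≤ u x` whenever `|x 0| ≤ |y 0|` and `|x 1| ≤ |y 1|` (so `u` is even in each
coordinate and nonincreasing in each `|x i|`).  `pt a b`: the point of the Euclidean plane with
coordinates `a`, `b`.
-/

open MeasureTheory
open scoped ENNReal

namespace Vale.Agent.H76.P137B

open Vale.Agent.H70.P137

/-- `u` is block-decreasing. -/
def BlockAnti (u : E 2 → ℝ) : Prop :=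
  ∀ x y : E 2, |x 0| ≤ |y 0| → |x 1| ≤ |y 1| → u y ≤ u x

/-- The point of the plane with coordinates `a` and `b`. -/
noncomputable def pt (a b : ℝ) : E 2 := !₂[a, b]

end Vale.Agent.H76.P137B
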