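import Mathlib
import Vale.Agent.H76.P137B.Defs

/-!
# P137, block-decreasing functions in the plane: coordinates

Coordinates of `pt a b`, and Tonelli for the Euclidean plane in the coordinates `pt a b`
(the map `(a, b) ↦ pt a b` from `ℝ × ℝ` is a measure preserving measurable equivalence).
-/

open MeasureTheory
open scoped ENNReal

namespace Vale.Agent.H76.P137B

open Vale.Agent.H70.P137

@[simp] theorem pt_zero (a b : ℝ) : pt a b 0 = a := by simp [pt]

@[simp] theorem pt_one (a b : ℝ) : pt a b 1 = b := by simp [pt]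

theorem pt_eta (x : E 2) : pt (x 0) (x 1) = x := by
  ext i
  fin_cases i <;> simp [pt]

theorem norm_pt_zero_right (t : ℝ) : ‖pt t 0‖ = |t| := by
  rw [EuclideanSpace.norm_eq]
  simp [pt, Fin.sum_univ_two, Real.sqrt_sq_eq_abs]

theorem norm_pt_zero_left (t : ℝ) : ‖pt 0 t‖ = |t| := by
  rw [EuclideanSpace.norm_eq]
  simp [pt, Fin.sum_univ_two, Real.sqrt_sq_eq_abs]

theorem smul_pt (c a b : ℝ) : c • pt a b = pt (c * a) (c * b) := by
  ext i
  fin_cases i <;> simp [pt]

theorem pt_add (a b a' b' : ℝ) : pt a b + pt a' b' = pt (a + a') (b + b') := by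
  ext i
  fin_cases i <;> simp [pt]

theorem continuous_pt : Continuous (fun p : ℝ × ℝ => pt p.1 p.2) := by
  unfold pt
  fun_prop

theorem measurable_pt : Measurable (fun p : ℝ × ℝ => pt p.1 p.2) := continuous_pt.measurable

/-- Tonelli in the coordinates `pt a b`. -/
theorem lintegral_E2 (φ : E 2 → ℝ≥0∞) (hφ : Measurable φ) :
    ∫⁻ x : E 2, φ x = ∫⁻ a : ℝ, ∫⁻ b : ℝ, φ (pt a b) := by
  have h1 : MeasurePreserving (MeasurableEquiv.toLp 2 (Fin 2 → ℝ)).symm
      (volume : Measure (E 2)) volume :=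
    EuclideanSpace.volume_preserving_symm_measurableEquiv_toLp (Fin 2)
  have h2 : MeasurePreserving (MeasurableEquiv.finTwoArrow (α := ℝ)) volume volume :=
    volume_preserving_finTwoArrow ℝ
  have h3 := h2.comp h1
  let e : E 2 ≃ᵐ ℝ × ℝ :=
    (MeasurableEquiv.toLp 2 (Fin 2 → ℝ)).symm.trans MeasurableEquiv.finTwoArrow
  have he : MeasurePreserving e volume volume := h3
  have hs : ∀ p : ℝ × ℝ, e.symm p = pt p.1 p.2 := by
    intro p
    rfl
  calc ∫⁻ x : E 2, φ x = ∫⁻ p : ℝ × ℝ, φ (e.symm p) := by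
        rw [← he.symm.lintegral_comp hφ]
    _ = ∫⁻ p : ℝ × ℝ, φ (pt p.1 p.2) := by simp only [hs]
    _ = ∫⁻ a : ℝ, ∫⁻ b : ℝ, φ (pt a b) := by
        rw [Measure.volume_eq_prod, lintegral_prod]
        exact (hφ.comp measurable_pt).aemeasurable

/-- Tonelli in the coordinates `pt a b`, the other order. -/
theorem lintegral_E2' (φ : E 2 → ℝ≥0∞) (hφ : Measurable φ) :
    ∫⁻ x : E 2, φ x = ∫⁻ b : ℝ, ∫⁻ a : ℝ, φ (pt a b) := by
  rw [lintegral_E2 φ hφ]
  exact lintegral_lintegral_swap (hφ.comp measurable_pt).aemeasurable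

end Vale.Agent.H76.P137B
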