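import Mathlib
import Vale.Agent.H76.P137B.Defs
import Vale.Agent.H76.P137B.Coord
import Vale.Agent.H70.P137.CA

/-!
# P137 block-decreasing project, row PB-4: the integral of the disc averages along a line

ROW PB-4 (replace the `sorry`, keep the statement exactly; helper lemmas: stem `pba_`).

`∫ cA f (3 |t| / 2) dt ≤ (4 / (3 π)) ∫ f(y) / |y| dy` (in fact equality) for continuous `f ≥ 0`
on the Euclidean plane; all integrals are `lintegral`s, both sides may be infinite.

Proof. For `R > 0`, `cA f R = (π R ^ 2)⁻¹ * ∫ y in ball 0 R, f y` (`cA_eq` and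
`EuclideanSpace.volume_ball_fin_two` / `InnerProductSpace.volume_ball_fin_two`: the disc of radius
`R` has volume `π R ^ 2`), and the integral is finite (continuous on a bounded set), so
`ENNReal.ofReal (cA f R) = ENNReal.ofReal ((π R ^ 2)⁻¹) * ∫⁻ y, indicator (ball 0 R) (ofReal ∘ f) y`
(`ofReal_integral_eq_lintegral_ofReal`).  The point `t = 0` is a null set.  With `R = 3 |t| / 2`:
`∫⁻ t, ofReal (cA f (3 |t| / 2)) = ∫⁻ t, ∫⁻ y, ofReal (4 / (9 π t ^ 2)) * 1[‖y‖ < 3 |t| / 2] *
ofReal (f y)`; Tonelli (`lintegral_lintegral_swap`; the integrand is jointly measurable), and for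
fixed `y ≠ 0` the inner integral is `ofReal (f y) * ∫⁻ t, 1[|t| > 2 ‖y‖ / 3] * ofReal (4 / (9 π t ^ 2))
= ofReal (f y) * ofReal (2 * (4 / (9 π)) * (3 / (2 ‖y‖))) = ofReal (4 / (3 π)) * ofReal (f y / ‖y‖)`
(`∫_a^∞ t ^ (-2) dt = 1 / a` for `a > 0`: `integral_Ioi_rpow_of_lt` or
`integral_Ioi_inv_sq`-type lemmas; both half lines).  `y = 0` is a null set of the plane.
Only `≤` is asked.
-/

open MeasureTheory Metric Set
open scoped ENNReal

namespace Vale.Agent.H76.P137B

open Vale.Agent.H70.P137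

theorem pba_abs (H : ℝ → ℝ≥0∞) : ∫⁻ t : ℝ, H |t| = 2 * ∫⁻ t in Ioi (0:ℝ), H t := by
  have h1 : ∫⁻ t in Ioi (0:ℝ), H |t| = ∫⁻ t in Ioi (0:ℝ), H t :=
    setLIntegral_congr_fun measurableSet_Ioi (fun t ht => by rw [abs_of_pos ht])
  have h2 : ∫⁻ t in Iic (0:ℝ), H |t| = ∫⁻ t in Ioi (0:ℝ), H t := by
    have e1 : ∫⁻ t in Iic (0:ℝ), H |t| = ∫⁻ t in Iio (0:ℝ), H |t| :=
      setLIntegral_congr Iio_ae_eq_Iic.symm
    rw [e1, ← lintegral_indicator measurableSet_Iio, ← lintegral_indicator measurableSet_Ioi]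
    have e2 : ∀ t : ℝ, (Iio (0:ℝ)).indicator (fun t => H |t|) t = (Ioi (0:ℝ)).indicator H (-t) := by
      intro t
      by_cases ht : t < 0
      · rw [indicator_of_mem (mem_Iio.mpr ht), indicator_of_mem (mem_Ioi.mpr (by linarith)),
          abs_of_neg ht]
      · rw [indicator_of_notMem (by simpa using ht), indicator_of_notMem (by simp; linarith)]
    rw [lintegral_congr e2]
    exact lintegral_neg_eq_self (μ := volume) (fun t => (Ioi (0:ℝ)).indicator H t)
  rw [← lintegral_add_compl _ (measurableSet_Ioi (a := (0:ℝ))), compl_Ioi, h1, h2, two_mul]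

theorem pba_inner (a : ℝ) (ha : 0 < a) (c : ℝ) (hc : 0 ≤ c) :
    ∫⁻ t in Ioi a, ENNReal.ofReal (c / t ^ 2) = ENNReal.ofReal (c / a) := by
  have hint : IntegrableOn (fun t : ℝ => c * t ^ (-2 : ℝ)) (Ioi a) :=
    (integrableOn_Ioi_rpow_of_lt (by norm_num) ha).const_mul c
  have hval : ∫ t in Ioi a, c * t ^ (-2 : ℝ) = c / a := by
    rw [integral_const_mul, integral_Ioi_rpow_of_lt (by norm_num) ha]
    have : (-2 : ℝ) + 1 = -1 := by norm_num
    rw [this, Real.rpow_neg_one]
    field_simp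
  have hnn : 0 ≤ᵐ[volume.restrict (Ioi a)] fun t : ℝ => c * t ^ (-2 : ℝ) := by
    filter_upwards [ae_restrict_mem measurableSet_Ioi] with t ht
    have ht0 : (0:ℝ) < t := ha.trans ht
    positivity
  rw [← hval, ofReal_integral_eq_lintegral_ofReal hint hnn]
  apply setLIntegral_congr_fun measurableSet_Ioi
  intro t ht
  have ht0 : (0:ℝ) < t := ha.trans ht
  show ENNReal.ofReal (c / t ^ 2) = ENNReal.ofReal (c * t ^ (-2 : ℝ))
  congr 1
  rw [Real.rpow_neg ht0.le, div_eq_mul_inv]
  norm_num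

/-- ROW PB-4. -/
theorem lintegral_cA_axis (f : E 2 → ℝ) (hf0 : ∀ x, 0 ≤ f x) (hfc : Continuous f) :
    ∫⁻ t : ℝ, ENNReal.ofReal (cA f (3 / 2 * |t|))
      ≤ ENNReal.ofReal (4 / (3 * Real.pi)) * Iw f := by
  have hpi : 0 < Real.pi := Real.pi_pos
  rw [pba_abs (fun s => ENNReal.ofReal (cA f (3 / 2 * s)))]
  set F : ℝ → E 2 → ℝ≥0∞ := fun t y =>
    ENNReal.ofReal (4 / (9 * Real.pi * t ^ 2))
      * (if ‖y‖ < 3 / 2 * t then ENNReal.ofReal (f y) else 0) with hF
  have hpt : ∀ t ∈ Ioi (0:ℝ), ENNReal.ofReal (cA f (3 / 2 * t)) = ∫⁻ y, F t y := by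
    intro t ht
    have ht0 : (0:ℝ) < t := ht
    have hR : (0:ℝ) < 3 / 2 * t := by positivity
    rw [cA_eq f _ hR, EuclideanSpace.volume_ball_fin_two]
    have hint : IntegrableOn f (ball (0 : E 2) (3 / 2 * t)) :=
      (hfc.continuousOn.integrableOn_compact (isCompact_closedBall 0 _)).mono_set
        ball_subset_closedBall
    rw [ENNReal.ofReal_mul (by positivity),
      ofReal_integral_eq_lintegral_ofReal hint (Filter.Eventually.of_forall fun y => hf0 y)]
    rw [lintegral_const_mul' _ _ ENNReal.ofReal_ne_top]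
    congr 1
    · congr 1
      rw [← ENNReal.ofReal_pow hR.le, ← ENNReal.ofReal_mul (by positivity),
        ENNReal.toReal_ofReal (by positivity)]
      field_simp
      ring
    · rw [← lintegral_indicator measurableSet_ball]
      congr 1 with y
      simp [indicator, mem_ball, dist_zero_right]
  rw [setLIntegral_congr_fun measurableSet_Ioi hpt]
  have hmeas : Measurable (Function.uncurry F) := by
    apply Measurable.mul
    · fun_prop
    · apply Measurable.ite
      · exact measurableSet_lt (measurable_snd.norm) (measurable_fst.const_mul _)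
      · exact (hfc.measurable.comp measurable_snd).ennreal_ofReal
      · exact measurable_const
  rw [lintegral_lintegral_swap hmeas.aemeasurable]
  have hin : ∀ y : E 2, y ≠ 0 → ∫⁻ t in Ioi (0:ℝ), F t y
      = ENNReal.ofReal (2 / (3 * Real.pi)) * ENNReal.ofReal (f y / ‖y‖) := by
    intro y hy
    have hn : 0 < ‖y‖ := norm_pos_iff.mpr hy
    have ha : (0:ℝ) < 2 / 3 * ‖y‖ := by positivity
    have e1 : ∀ t : ℝ, F t y = (Ioi (2 / 3 * ‖y‖)).indicator
        (fun t => ENNReal.ofReal (4 / (9 * Real.pi) * f y / t ^ 2)) t := by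
      intro t
      by_cases h : ‖y‖ < 3 / 2 * t
      · have hm : t ∈ Ioi (2 / 3 * ‖y‖) := by rw [mem_Ioi]; linarith
        have ht0 : (0:ℝ) < t := by linarith
        rw [indicator_of_mem hm]
        simp only [hF, if_pos h]
        rw [← ENNReal.ofReal_mul (by positivity)]
        congr 1
        field_simp
      · have hm : t ∉ Ioi (2 / 3 * ‖y‖) := by
          rw [mem_Ioi]; intro h'; exact h (by linarith)
        rw [indicator_of_notMem hm]
        simp only [hF, if_neg h, mul_zero]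
    rw [lintegral_congr e1, lintegral_indicator measurableSet_Ioi,
      Measure.restrict_restrict measurableSet_Ioi, Ioi_inter_Ioi, sup_eq_left.mpr ha.le,
      pba_inner _ ha _ (by have := hf0 y; positivity),
      ← ENNReal.ofReal_mul (by positivity)]
    congr 1
    field_simp
    ring
  have hae : ∀ᵐ y : E 2, ∫⁻ t in Ioi (0:ℝ), F t y
      = ENNReal.ofReal (2 / (3 * Real.pi)) * ENNReal.ofReal (f y / ‖y‖) := by
    have : ∀ᵐ y : E 2, y ≠ 0 := by
      rw [ae_iff]
      simp
    filter_upwards [this] with y hy using hin y hy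
  rw [lintegral_congr_ae hae, lintegral_const_mul' _ _ ENNReal.ofReal_ne_top, ← mul_assoc]
  unfold Iw
  apply le_of_eq
  congr 1
  have e2 : (2 : ℝ≥0∞) = ENNReal.ofReal 2 := by simp
  rw [e2, ← ENNReal.ofReal_mul (by norm_num)]
  congr 1
  field_simp
  ring

end Vale.Agent.H76.P137B
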