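import Mathlib
import Vale.Agent.H76.P137B.Defs
import Vale.Agent.H76.P137B.Coord
import Vale.Agent.H70.P137.Refl

/-!
# P137 block-decreasing project, row PB-1: the reflection lemma for block-decreasing functions

ROW PB-1 (replace the placeholder, keep the statement exactly; helper lemmas: fresh names with stem
`pbr_` in this file).

If `|x 0| ≤ |y 0|` and `|x 1| ≤ |y 1|` and `f` is continuous and block-decreasing, then the
integral of `f` over the disc `B(y, r)` is at most the integral over `B(x, r)`.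

Proof. Two steps, changing one coordinate at a time: `y`, then `w = pt (x 0) (y 1)`, then `x`
(use `pt_eta`).  So it is enough to treat `x`, `y` that differ in ONE coordinate `i`
(`x j = y j` for the other coordinate `j`) with `|x i| ≤ |y i|`.  If `x = y` it is trivial.
Otherwise let `ρ` be the reflection in the line bisecting `x` and `y`, exactly as in
`Vale.Agent.H70.P137.Refl` (COPY-ADAPT `refl_exists` and `setIntegral_ball_le` of that file:
`ρ z = R (z - m) + m`, `m` the midpoint, `R` the linear reflection in the orthogonal complement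
of `y - x`; `refl_apply` gives `ρ z = z - (2 ⟪y - x, z - m⟫ / ‖y - x‖ ^ 2) • (y - x)`).  Since
`y - x` is a multiple of the `i`-th basis vector, `ρ` changes only the coordinate `i`:
` (ρ z) j = z j` and ` (ρ z) i = x i + y i - z i`.  For `z` with `dist z y ≤ dist z x` one gets
`|(ρ z) i| ≤ |z i|`: the inequality of the distances says that `z i` is on the side of `y i`,
i.e. ` (z i - (x i + y i) / 2) * (y i - x i) ≥ 0`, and `|x i| ≤ |y i|` says
` (x i + y i) * (y i - x i) ≥ 0`; then ` (z i) ^ 2 - (x i + y i - z i) ^ 2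
= (x i + y i) * (2 * z i - x i - y i) ≥ 0`.  Hence `f (ρ z) ≥ f z` for such `z` by `BlockAnti`, and
the rest is the computation of `setIntegral_ball_le` (measure preservation, the preimages of the
two discs, the common part) with `hf` replaced by this inequality.
-/

open MeasureTheory Metric Set

namespace Vale.Agent.H76.P137B

open Vale.Agent.H70.P137

/-- the affine reflection swapping `x` and `y`, with its formula -/
theorem pbr_refl_exists (x y : E 2) :
    ∃ ρ : E 2 → E 2, Continuous ρ ∧ (∀ z, ρ (ρ z) = z) ∧ MeasurePreserving ρ volume volume ∧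
      (∀ z w, dist (ρ z) (ρ w) = dist z w) ∧ ρ y = x ∧
      (∀ z, ρ z = z - (2 * inner ℝ (y - x) (z - (1 / 2 : ℝ) • (x + y)) / ‖y - x‖ ^ 2)
        • (y - x)) := by
  have hRv : (Submodule.span ℝ {y - x})ᗮ.reflection (y - x) = -(y - x) :=
    Submodule.reflection_orthogonalComplement_singleton_eq_neg (y - x)
  refine ⟨fun z => (Submodule.span ℝ {y - x})ᗮ.reflection (z - (1 / 2 : ℝ) • (x + y))
    + (1 / 2 : ℝ) • (x + y), ?_, ?_, ?_, ?_, ?_, ?_⟩
  · fun_prop
  · intro z
    simp only [add_sub_cancel_right, Submodule.reflection_reflection, sub_add_cancel]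
  · exact (measurePreserving_add_right volume ((1 / 2 : ℝ) • (x + y))).comp
      ((LinearIsometryEquiv.measurePreserving
        ((Submodule.span ℝ {y - x})ᗮ.reflection)).comp
        (measurePreserving_sub_right volume ((1 / 2 : ℝ) • (x + y))))
  · intro z w
    simp only [dist_add_right, LinearIsometryEquiv.dist_map, dist_sub_right]
  · have h1 : y - (1 / 2 : ℝ) • (x + y) = (1 / 2 : ℝ) • (y - x) := by module
    simp only []
    rw [h1, map_smul, hRv]
    module
  · intro z
    simp only []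
    rw [refl_apply]
    module

/-- the integral comparison from a reflection with the pointwise inequality -/
theorem pbr_int_le (f : E 2 → ℝ) (hfc : Continuous f) (x y : E 2) (r : ℝ) (ρ : E 2 → E 2)
    (hρc : Continuous ρ) (hρρ : ∀ z, ρ (ρ z) = z) (hmp : MeasurePreserving ρ volume volume)
    (hρdist : ∀ z w, dist (ρ z) (ρ w) = dist z w) (hρy : ρ y = x)
    (hle : ∀ z, dist z y ≤ dist z x → f z ≤ f (ρ z)) :
    ∫ z in ball y r, f z ≤ ∫ z in ball x r, f z := by
  have hρx : ρ x = y := by rw [← hρy, hρρ]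
  have hemb : MeasurableEmbedding ρ :=
    (Homeomorph.mk ⟨ρ, ρ, hρρ, hρρ⟩ hρc hρc).measurableEmbedding
  have hpre1 : ρ ⁻¹' (ball x r) = ball y r := by
    ext z
    simp only [mem_preimage, mem_ball]
    rw [← hρy, hρdist]
  have hpre2 : ρ ⁻¹' (ball y r) = ball x r := by
    ext z
    simp only [mem_preimage, mem_ball]
    rw [← hρx, hρdist]
  have hint : ∀ g : E 2 → ℝ, Continuous g → ∀ c : E 2, IntegrableOn g (ball c r) volume := by
    intro g hg c
    exact (hg.continuousOn.integrableOn_compact (isCompact_closedBall c r)).mono_set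
      ball_subset_closedBall
  have hfρ : Continuous (fun z => f (ρ z)) := hfc.comp hρc
  have h1 : ∫ z in ball x r, f z = ∫ z in ball y r, f (ρ z) := by
    rw [← hpre1]
    exact (hmp.setIntegral_preimage_emb hemb f (ball x r)).symm
  have h2 : ∫ z in ball y r ∩ ball x r, f (ρ z) = ∫ z in ball y r ∩ ball x r, f z := by
    have hpre : ρ ⁻¹' (ball y r ∩ ball x r) = ball y r ∩ ball x r := by
      rw [preimage_inter, hpre1, hpre2, inter_comm]
    have h0 := hmp.setIntegral_preimage_emb hemb f (ball y r ∩ ball x r)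
    rw [hpre] at h0
    exact h0
  have h3 : ∫ z in ball y r \ ball x r, f z ≤ ∫ z in ball y r \ ball x r, f (ρ z) := by
    refine setIntegral_mono_on ((hint f hfc y).mono_set sdiff_subset)
      ((hint _ hfρ y).mono_set sdiff_subset) (measurableSet_ball.diff measurableSet_ball) ?_
    intro z hz
    apply hle
    have h4 := mem_ball.1 hz.1
    have h5 : ¬ dist z x < r := fun h => hz.2 (mem_ball.2 h)
    linarith [not_lt.1 h5]
  calc ∫ z in ball y r, f z
      = (∫ z in ball y r ∩ ball x r, f z) + ∫ z in ball y r \ ball x r, f z :=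
        (integral_inter_add_sdiff (measurableSet_ball (x := x) (ε := r)) (hint f hfc y)).symm
    _ ≤ (∫ z in ball y r ∩ ball x r, f (ρ z)) + ∫ z in ball y r \ ball x r, f (ρ z) := by
        rw [h2]
        linarith
    _ = ∫ z in ball y r, f (ρ z) :=
        integral_inter_add_sdiff (measurableSet_ball (x := x) (ε := r)) (hint _ hfρ y)
    _ = ∫ z in ball x r, f z := h1.symm

/-- the one-dimensional inequality behind the reflection -/
theorem pbr_real (a b t : ℝ) (hab : |a| ≤ |b|) (hne : b - a ≠ 0)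
    (h : (t - b) ^ 2 ≤ (t - a) ^ 2) : |a + b - t| ≤ |t| := by
  have h1 : 0 ≤ (b - a) * (2 * t - a - b) := by nlinarith
  have h2 : 0 ≤ (b - a) * (a + b) := by
    have := sq_le_sq.mpr hab
    nlinarith
  have hpos : 0 < (b - a) ^ 2 := by positivity
  have h3 : 0 ≤ (b - a) ^ 2 * ((a + b) * (2 * t - a - b)) := by
    have := mul_nonneg h1 h2
    nlinarith
  have h4 : 0 ≤ (a + b) * (2 * t - a - b) := by
    by_contra hneg
    push Not at hneg
    nlinarith [mul_pos_of_neg_of_neg (neg_lt_zero.mpr hpos) hneg]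
  apply sq_le_sq.mp
  nlinarith

theorem pbr_reduce (c δ s : ℝ) (hδ : δ ≠ 0) :
    s - 2 * (δ * (s - 1 / 2 * c)) / δ ^ 2 * δ = c - s := by
  field_simp
  ring

/-- one reflection step in the coordinate `0` -/
theorem pbr_step0 (f : E 2 → ℝ) (hf : BlockAnti f) (hfc : Continuous f)
    (x y : E 2) (h1 : x 1 = y 1) (h0 : |x 0| ≤ |y 0|) (r : ℝ) :
    ∫ z in ball y r, f z ≤ ∫ z in ball x r, f z := by
  by_cases hxy : x = y
  · rw [hxy]
  obtain ⟨ρ, hρc, hρρ, hmp, hρdist, hρy, hρf⟩ := pbr_refl_exists x y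
  have hδ : y 0 - x 0 ≠ 0 := by
    intro h
    apply hxy
    ext i
    fin_cases i
    · simp only [Fin.zero_eta]
      linarith
    · simpa using h1
  have hv0 : (y - x) 0 = y 0 - x 0 := by simp
  have hv1 : (y - x) 1 = 0 := by simp [h1]
  have hnorm : ‖y - x‖ ^ 2 = (y 0 - x 0) ^ 2 := by
    rw [EuclideanSpace.real_norm_sq_eq, Fin.sum_univ_two, hv0, hv1]
    ring
  have hinner : ∀ w : E 2, inner ℝ (y - x) w = (y 0 - x 0) * w 0 := by
    intro w
    rw [PiLp.inner_apply, Fin.sum_univ_two, hv0, hv1]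
    simp
    ring
  have hρ1 : ∀ z, (ρ z) 1 = z 1 := by
    intro z
    rw [hρf z]
    simp [hv1]
  have hρ0 : ∀ z, (ρ z) 0 = x 0 + y 0 - z 0 := by
    intro z
    rw [hρf z, hinner, hnorm]
    simp only [PiLp.sub_apply, PiLp.smul_apply, smul_eq_mul, PiLp.add_apply]
    exact pbr_reduce (x 0 + y 0) (y 0 - x 0) (z 0) hδ
  refine pbr_int_le f hfc x y r ρ hρc hρρ hmp hρdist hρy ?_
  intro z hz
  apply hf (ρ z) z
  · rw [hρ0 z]
    apply pbr_real (x 0) (y 0) (z 0) h0 hδ
    have hd : ‖z - y‖ ^ 2 ≤ ‖z - x‖ ^ 2 := by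
      have h0' := hz
      rw [dist_eq_norm, dist_eq_norm] at h0'
      exact pow_le_pow_left₀ (norm_nonneg _) h0' 2
    rw [EuclideanSpace.real_norm_sq_eq, EuclideanSpace.real_norm_sq_eq, Fin.sum_univ_two,
      Fin.sum_univ_two] at hd
    simp only [PiLp.sub_apply] at hd
    rw [h1] at hd
    linarith
  · rw [hρ1 z]

/-- one reflection step in the coordinate `1` -/
theorem pbr_step1 (f : E 2 → ℝ) (hf : BlockAnti f) (hfc : Continuous f)
    (x y : E 2) (h0 : x 0 = y 0) (h1 : |x 1| ≤ |y 1|) (r : ℝ) :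
    ∫ z in ball y r, f z ≤ ∫ z in ball x r, f z := by
  by_cases hxy : x = y
  · rw [hxy]
  obtain ⟨ρ, hρc, hρρ, hmp, hρdist, hρy, hρf⟩ := pbr_refl_exists x y
  have hδ : y 1 - x 1 ≠ 0 := by
    intro h
    apply hxy
    ext i
    fin_cases i
    · simpa using h0
    · simp only [Fin.mk_one]
      linarith
  have hv1 : (y - x) 1 = y 1 - x 1 := by simp
  have hv0 : (y - x) 0 = 0 := by simp [h0]
  have hnorm : ‖y - x‖ ^ 2 = (y 1 - x 1) ^ 2 := by
    rw [EuclideanSpace.real_norm_sq_eq, Fin.sum_univ_two, hv0, hv1]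
    ring
  have hinner : ∀ w : E 2, inner ℝ (y - x) w = (y 1 - x 1) * w 1 := by
    intro w
    rw [PiLp.inner_apply, Fin.sum_univ_two, hv0, hv1]
    simp
    ring
  have hρ0 : ∀ z, (ρ z) 0 = z 0 := by
    intro z
    rw [hρf z]
    simp [hv0]
  have hρ1 : ∀ z, (ρ z) 1 = x 1 + y 1 - z 1 := by
    intro z
    rw [hρf z, hinner, hnorm]
    simp only [PiLp.sub_apply, PiLp.smul_apply, smul_eq_mul, PiLp.add_apply]
    exact pbr_reduce (x 1 + y 1) (y 1 - x 1) (z 1) hδ
  refine pbr_int_le f hfc x y r ρ hρc hρρ hmp hρdist hρy ?_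
  intro z hz
  apply hf (ρ z) z
  · rw [hρ0 z]
  · rw [hρ1 z]
    apply pbr_real (x 1) (y 1) (z 1) h1 hδ
    have hd : ‖z - y‖ ^ 2 ≤ ‖z - x‖ ^ 2 := by
      have h0' := hz
      rw [dist_eq_norm, dist_eq_norm] at h0'
      exact pow_le_pow_left₀ (norm_nonneg _) h0' 2
    rw [EuclideanSpace.real_norm_sq_eq, EuclideanSpace.real_norm_sq_eq, Fin.sum_univ_two,
      Fin.sum_univ_two] at hd
    simp only [PiLp.sub_apply] at hd
    rw [h0] at hd
    linarith

/-- ROW PB-1. -/
theorem setIntegral_ball_le_block (f : E 2 → ℝ) (hf : BlockAnti f) (hfc : Continuous f)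
    (x y : E 2) (h0 : |x 0| ≤ |y 0|) (h1 : |x 1| ≤ |y 1|) (r : ℝ) :
    ∫ z in ball y r, f z ≤ ∫ z in ball x r, f z := by
  have hA : ∫ z in ball y r, f z ≤ ∫ z in ball (pt (x 0) (y 1)) r, f z := by
    apply pbr_step0 f hf hfc (pt (x 0) (y 1)) y
    · simp
    · simpa using h0
  have hB : ∫ z in ball (pt (x 0) (y 1)) r, f z ≤ ∫ z in ball x r, f z := by
    apply pbr_step1 f hf hfc x (pt (x 0) (y 1))
    · simp
    · simpa using h1
  exact le_trans hA hB

end Vale.Agent.H76.P137B
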