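import Mathlib
import Vale.Agent.H76.P137B.Defs
import Vale.Agent.H76.P137B.Refl
import Vale.Agent.H70.P137.Mono
import Vale.Agent.H70.P137.CA

/-!
# P137 block-decreasing project, row PB-2: monotonicity of `cM f` and of `cA f`

ROW PB-2 (replace the two `sorry`, keep the statements exactly; helper lemmas: stem `pbm_`).

* `cM_blockAnti`: COPY-ADAPT of `Vale.Agent.H70.P137.cM_radAnti` (Mono.lean there): for every
  `r > 0`, `ballAvg f y r ≤ ballAvg f x r ≤ cM f x`, because the two discs have the same volume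
  (`Measure.addHaar_ball_center`), `|f| = f`, and `setIntegral_ball_le_block` (row PB-1, use it as
  stated); then `Real.iSup_le` / `ciSup_le` and `ballAvg_le_cM`.
* `cA_anti_block`: COPY-ADAPT of `Vale.Agent.H70.P137.cA_anti` (CA.lean there): the integrand
  `f (R' • z) ≤ f (R • z)` pointwise by `BlockAnti`, since `|(R • z) i| = R * |z i| ≤ R' * |z i|`.
-/

open MeasureTheory Metric Set

namespace Vale.Agent.H76.P137B

open Vale.Agent.H70.P137

theorem pbm_integrableOn (f : E 2 → ℝ) (hfc : Continuous f) (R : ℝ) :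
    IntegrableOn (fun z : E 2 => f (R • z)) (ball (0 : E 2) 1) := by
  have hc : Continuous (fun z : E 2 => f (R • z)) := hfc.comp (continuous_const_smul R)
  exact (hc.continuousOn.integrableOn_compact (isCompact_closedBall (0 : E 2) 1)).mono_set
    ball_subset_closedBall

theorem pbm_coord (R R' : ℝ) (hR : 0 ≤ R) (hRR : R ≤ R') (z : E 2) (i : Fin 2) :
    |(R • z) i| ≤ |(R' • z) i| := by
  rw [PiLp.smul_apply, PiLp.smul_apply, smul_eq_mul, smul_eq_mul, abs_mul, abs_mul,
    abs_of_nonneg hR, abs_of_nonneg (hR.trans hRR)]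
  exact mul_le_mul_of_nonneg_right hRR (abs_nonneg _)

/-- ROW PB-2a. -/
theorem cM_blockAnti (f : E 2 → ℝ) (hf : BlockAnti f) (hf0 : ∀ x, 0 ≤ f x)
    (hfc : Continuous f) (c : ℝ) (hc : ∀ y, f y ≤ c) : BlockAnti (cM f) := by
  intro x y h0 h1
  have hc0 : 0 ≤ c := (hf0 0).trans (hc 0)
  have habs : ∀ z, |f z| = f z := fun z => abs_of_nonneg (hf0 z)
  have hc' : ∀ z, |f z| ≤ c := fun z => by rw [habs z]; exact hc z
  apply Real.iSup_le _ (cM_nonneg f x)
  intro r
  refine le_trans ?_ (ballAvg_le_cM f c hc0 hc' x r.1 r.2)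
  unfold ballAvg
  have hvol : volume (ball y (r : ℝ)) = volume (ball x (r : ℝ)) := by
    rw [Measure.addHaar_ball_center volume y, Measure.addHaar_ball_center volume x]
  rw [hvol]
  apply mul_le_mul_of_nonneg_left _ (inv_nonneg.2 ENNReal.toReal_nonneg)
  simp only [habs]
  exact setIntegral_ball_le_block f hf hfc x y h0 h1 r

/-- ROW PB-2b. -/
theorem cA_anti_block (f : E 2 → ℝ) (hf : BlockAnti f) (hfc : Continuous f) (R R' : ℝ)
    (hR : 0 ≤ R) (hRR : R ≤ R') : cA f R' ≤ cA f R := by
  unfold cA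
  refine mul_le_mul_of_nonneg_left ?_ (inv_nonneg.mpr ENNReal.toReal_nonneg)
  refine setIntegral_mono_on (pbm_integrableOn f hfc R') (pbm_integrableOn f hfc R)
    measurableSet_ball (fun z _ => ?_)
  exact hf _ _ (pbm_coord R R' hR hRR z 0) (pbm_coord R R' hR hRR z 1)

end Vale.Agent.H76.P137B
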