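import Mathlib
import Vale.Agent.H76.P137B.Defs
import Vale.Agent.H76.P137B.Mono
import Vale.Agent.H70.P137.Point

/-!
# P137 block-decreasing project, row PB-3: the pointwise bound on the coordinate axes

ROW PB-3 (PROVED by helper54; statement kept exactly; helper lemmas: stem `pbp_`).

For `x ≠ 0` on a coordinate axis (`x 0 = 0` or `x 1 = 0`):
`cM f x ≤ f (x / 2) + 9 * cA f (3 |x| / 2)`.

COPY-ADAPT of `Vale.Agent.H70.P137.cM_le_point` (Point.lean there, with `d = 2`, `3 ^ 2 = 9`);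
two changes only:
* radius `r ≤ ‖x‖ / 2`: for `z ∈ ball x r` show `f z ≤ f ((1/2) • x)` by `BlockAnti`.  Say
  `x 1 = 0` (the other case is symmetric).  Then `‖x‖ = |x 0|` (`EuclideanSpace.norm_eq`,
  `Fin.sum_univ_two`), `|((1/2) • x) 1| = 0 ≤ |z 1|`, and `|z 0 - x 0| ≤ ‖z - x‖ < r ≤ |x 0| / 2`
  (`EuclideanSpace.norm_eq`, or `PiLp.norm_apply_le`) gives `|((1/2) • x) 0| = |x 0| / 2 ≤ |z 0|`.
* radius `r > ‖x‖ / 2`: as there, with `cA_anti_block` (row PB-2, as stated) in place of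
  `cA_anti`.
-/

open MeasureTheory Metric Set

namespace Vale.Agent.H76.P137B

open Vale.Agent.H70.P137

theorem pbp_norm_of_snd_zero (x : E 2) (h : x 1 = 0) : ‖x‖ = |x 0| := by
  rw [EuclideanSpace.norm_eq, Fin.sum_univ_two, h, norm_zero]
  simp only [ne_eq, OfNat.ofNat_ne_zero, not_false_eq_true, zero_pow, add_zero]
  rw [Real.norm_eq_abs, Real.sqrt_sq (abs_nonneg _)]

theorem pbp_norm_of_fst_zero (x : E 2) (h : x 0 = 0) : ‖x‖ = |x 1| := by
  rw [EuclideanSpace.norm_eq, Fin.sum_univ_two, h, norm_zero]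
  simp only [ne_eq, OfNat.ofNat_ne_zero, not_false_eq_true, zero_pow, zero_add]
  rw [Real.norm_eq_abs, Real.sqrt_sq (abs_nonneg _)]

theorem pbp_coord_le (z x : E 2) (i : Fin 2) : |z i - x i| ≤ ‖z - x‖ := by
  have h := PiLp.norm_apply_le (z - x) i
  rwa [PiLp.sub_apply, Real.norm_eq_abs] at h

theorem pbp_half_coord (x : E 2) (i : Fin 2) : ((1 / 2 : ℝ) • x) i = x i / 2 := by
  rw [PiLp.smul_apply, smul_eq_mul]
  ring

theorem pbp_block_le (f : E 2 → ℝ) (hf : BlockAnti f) (x : E 2)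
    (hax : x 0 = 0 ∨ x 1 = 0) (r : ℝ) (hr : r ≤ ‖x‖ / 2) (z : E 2) (hz : ‖z - x‖ < r) :
    f z ≤ f ((1 / 2 : ℝ) • x) := by
  apply hf
  · rw [pbp_half_coord]
    rcases hax with h0 | h1
    · rw [h0]
      simp
    · have hn := pbp_norm_of_snd_zero x h1
      have hc := pbp_coord_le z x 0
      have h3 : |x 0| - |z 0| ≤ |z 0 - x 0| := by
        have h8 := abs_sub_abs_le_abs_sub (x 0) (z 0)
        rwa [abs_sub_comm] at h8
      rw [abs_div, abs_of_pos (by norm_num : (0 : ℝ) < 2)]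
      rw [hn] at hr
      linarith
  · rw [pbp_half_coord]
    rcases hax with h0 | h1
    · have hn := pbp_norm_of_fst_zero x h0
      have hc := pbp_coord_le z x 1
      have h3 : |x 1| - |z 1| ≤ |z 1 - x 1| := by
        have h8 := abs_sub_abs_le_abs_sub (x 1) (z 1)
        rwa [abs_sub_comm] at h8
      rw [abs_div, abs_of_pos (by norm_num : (0 : ℝ) < 2)]
      rw [hn] at hr
      linarith
    · rw [h1]
      simp

/-- ROW PB-3. -/
theorem cM_le_axis (f : E 2 → ℝ) (hf : BlockAnti f) (hf0 : ∀ x, 0 ≤ f x)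
    (hfc : Continuous f) (c : ℝ) (hc : ∀ y, f y ≤ c) (x : E 2) (hx : x ≠ 0)
    (hax : x 0 = 0 ∨ x 1 = 0) :
    cM f x ≤ f ((1 / 2 : ℝ) • x) + 9 * cA f (3 / 2 * ‖x‖) := by
  have hxn : 0 < ‖x‖ := norm_pos_iff.mpr hx
  have hA0 : ∀ R, 0 ≤ cA f R := fun R => cA_nonneg f hf0 R
  have : Nonempty {r : ℝ // 0 < r} := ⟨⟨1, one_pos⟩⟩
  unfold cM
  refine ciSup_le ?_
  rintro ⟨r, hr⟩
  show ballAvg f x r ≤ _
  have hint : ∀ (y : E 2) (s : ℝ), IntegrableOn f (ball y s) :=
    fun y s => point_integrableOn f hf0 hfc c hc y s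
  have habs : (fun y => |f y|) = f := by
    funext y
    exact abs_of_nonneg (hf0 y)
  have hvol : (volume (ball x r)).toReal = r ^ 2 * (volume (ball (0 : E 2) 1)).toReal := by
    rw [Measure.addHaar_ball_of_pos volume x hr, ENNReal.toReal_mul,
      ENNReal.toReal_ofReal (by positivity), finrank_euclideanSpace_fin]
  have hm : 0 < (volume (ball (0 : E 2) 1)).toReal := by
    refine ENNReal.toReal_pos ?_ ?_
    · exact (measure_ball_pos volume 0 one_pos).ne'
    · exact measure_ball_lt_top.ne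
  have hvpos : 0 < (volume (ball x r)).toReal := by
    rw [hvol]
    positivity
  unfold ballAvg
  rw [habs]
  by_cases hcase : r ≤ ‖x‖ / 2
  · have h1 : ∫ y in ball x r, f y ≤ ∫ y in ball x r, f ((1 / 2 : ℝ) • x) := by
      refine setIntegral_mono_on (hint x r) (integrableOn_const (by exact measure_ball_lt_top.ne))
        measurableSet_ball ?_
      intro z hz
      have hz' : dist z x < r := hz
      rw [dist_eq_norm] at hz'
      exact pbp_block_le f hf x hax r hcase z hz'
    rw [setIntegral_const] at h1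
    have h2 : (volume (ball x r)).toReal⁻¹ * ∫ y in ball x r, f y ≤ f ((1 / 2 : ℝ) • x) := by
      rw [inv_mul_le_iff₀ hvpos]
      simpa [Measure.real, smul_eq_mul] using h1
    have h3 : 0 ≤ (9 : ℝ) * cA f (3 / 2 * ‖x‖) := mul_nonneg (by positivity) (hA0 _)
    linarith
  · rw [not_le] at hcase
    have hsub : ball x r ⊆ ball (0 : E 2) (3 * r) := by
      intro z hz
      rw [mem_ball, dist_eq_norm] at hz
      rw [mem_ball, dist_zero_right]
      have h9 : ‖z‖ ≤ ‖z - x‖ + ‖x‖ := by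
        have h8 := norm_add_le (z - x) x
        simpa using h8
      linarith
    have h1 : ∫ y in ball x r, f y ≤ ∫ y in ball (0 : E 2) (3 * r), f y := by
      refine setIntegral_mono_set (hint 0 (3 * r)) ?_ ?_
      · filter_upwards with y using hf0 y
      · exact hsub.eventuallyLE
    have h3r : 0 < 3 * r := by positivity
    have hAeq := cA_eq f (3 * r) h3r
    have hvol3 : (volume (ball (0 : E 2) (3 * r))).toReal
        = (3 * r) ^ 2 * (volume (ball (0 : E 2) 1)).toReal := by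
      rw [Measure.addHaar_ball_of_pos volume 0 h3r, ENNReal.toReal_mul,
        ENNReal.toReal_ofReal (by positivity), finrank_euclideanSpace_fin]
    have hanti : cA f (3 * r) ≤ cA f (3 / 2 * ‖x‖) :=
      cA_anti_block f hf hfc (3 / 2 * ‖x‖) (3 * r) (by positivity) (by linarith)
    have h2 : (volume (ball x r)).toReal⁻¹ * ∫ y in ball x r, f y ≤ 9 * cA f (3 * r) := by
      rw [hAeq, hvol3, hvol]
      have h7 : (9 : ℝ) * (((3 * r) ^ 2 * (volume (ball (0 : E 2) 1)).toReal)⁻¹
          * ∫ y in ball (0 : E 2) (3 * r), f y)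
          = (r ^ 2 * (volume (ball (0 : E 2) 1)).toReal)⁻¹
            * ∫ y in ball (0 : E 2) (3 * r), f y := by
        rw [mul_pow]
        field_simp
        ring
      rw [h7]
      exact mul_le_mul_of_nonneg_left h1 (inv_nonneg.mpr (by positivity))
    have h4 : 0 ≤ f ((1 / 2 : ℝ) • x) := hf0 _
    have h5 : (9 : ℝ) * cA f (3 * r) ≤ 9 * cA f (3 / 2 * ‖x‖) :=
      mul_le_mul_of_nonneg_left hanti (by positivity)
    linarith

end Vale.Agent.H76.P137B
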