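import Mathlib
import Vale.Agent.H76.P137B.Defs
import Vale.Agent.H76.P137B.Coord

/-!
# P137 block-decreasing project, row PB-5: the integral of `f` along an axis

ROW PB-5 (replace the `sorry`, keep the statement exactly; helper lemmas: stem `pbt_`).

For `f ≥ 0` block-decreasing, `C^1` and integrable on the plane:
`∫ f(t, 0) dt ≤ (1/2) ∫ |∇f|` and `∫ f(0, t) dt ≤ (1/2) ∫ |∇f|`.

Proof of the first (the second is symmetric; `J = ∫⁻ x, ‖fderiv ℝ f x‖ₑ`).  Fix `t ≠ 0`.
(a) For `S > 0`: `f (pt t 0) - f (pt t S) = - ∫ s in 0..S, fderiv ℝ f (pt t s) (pt 0 1)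
≤ ∫ s in 0..S, ‖fderiv ℝ f (pt t s)‖` (fundamental theorem of calculus for `s ↦ f (pt t s)`,
whose derivative is `fderiv ℝ f (pt t s) (pt 0 1)`, `‖pt 0 1‖ = 1`; continuity of `fderiv` from
`hf1.continuous_fderiv`), and in the same way `f (pt t 0) - f (pt t (-S))
≤ ∫ s in (-S)..0, ‖fderiv ℝ f (pt t s)‖`.
(b) `f (pt t S) ≤ (∫ f) / (|t| * S)`: on the rectangle `{pt a b : 0 ≤ a ≤ |t|, 0 ≤ b ≤ S}` (of
volume `|t| * S`, e.g. through `lintegral_E2` or as the image of a product) `f ≥ f (pt t S)` by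
`BlockAnti`, and `f ≥ 0` elsewhere; the same bound holds for `f (pt t (-S))`.  So both tend to `0`
as `S → ∞`.
(c) Hence `2 * ofReal (f (pt t 0)) ≤ ∫⁻ s, ‖fderiv ℝ f (pt t s)‖ₑ` (the two half lines; let
`S → ∞`, or bound `ofReal (f (pt t 0)) ≤ ofReal (f (pt t S)) + ∫⁻ s in Ioi 0, ...` for every `S`).
(d) Integrate in `t` (`t = 0` is a null set) and use `lintegral_E2`:
`2 * ∫⁻ t, ofReal (f (pt t 0)) ≤ ∫⁻ t, ∫⁻ s, ‖fderiv ℝ f (pt t s)‖ₑ = J`.
For the second statement exchange the roles of the coordinates (`lintegral_E2'`).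
-/

open MeasureTheory Metric Set
open scoped ENNReal

namespace Vale.Agent.H76.P137B

open Vale.Agent.H70.P137

/-- The increment of a `C^1` function along a line is bounded by the integral of the norm of
its derivative. -/
theorem pbt_step (f : E 2 → ℝ) (hf1 : ContDiff ℝ 1 f) (p v : E 2) (hv : ‖v‖ = 1) (a b : ℝ)
    (hab : a ≤ b) :
    ‖f (p + b • v) - f (p + a • v)‖ₑ ≤ ∫⁻ s in Ioc a b, ‖fderiv ℝ f (p + s • v)‖ₑ := by
  have hderiv : ∀ s : ℝ, HasDerivAt (fun s : ℝ => f (p + s • v)) (fderiv ℝ f (p + s • v) v) s := by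
    intro s
    have hl : HasDerivAt (fun s : ℝ => p + s • v) v s := by
      simpa using ((hasDerivAt_id s).smul_const v).const_add p
    exact (hf1.differentiable one_ne_zero (p + s • v)).hasFDerivAt.comp_hasDerivAt s hl
  have hcont : Continuous (fun s : ℝ => fderiv ℝ f (p + s • v) v) :=
    ((hf1.continuous_fderiv one_ne_zero).comp (by fun_prop)).clm_apply continuous_const
  have hftc := intervalIntegral.integral_eq_sub_of_hasDerivAt (fun s _ => hderiv s)
    (hcont.intervalIntegrable a b)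
  have hle : ∀ s : ℝ, ‖fderiv ℝ f (p + s • v) v‖ₑ ≤ ‖fderiv ℝ f (p + s • v)‖ₑ := by
    intro s
    rw [enorm_le_iff_norm_le]
    have h := (fderiv ℝ f (p + s • v)).le_opNorm v
    rw [hv, mul_one] at h
    exact h
  calc ‖f (p + b • v) - f (p + a • v)‖ₑ
      = ‖∫ s in Ioc a b, fderiv ℝ f (p + s • v) v‖ₑ := by
        rw [← hftc, intervalIntegral.integral_of_le hab]
    _ ≤ ∫⁻ s in Ioc a b, ‖fderiv ℝ f (p + s • v) v‖ₑ := enorm_integral_le_lintegral_enorm _
    _ ≤ ∫⁻ s in Ioc a b, ‖fderiv ℝ f (p + s • v)‖ₑ := lintegral_mono hle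

/-- `ofReal x ≤ ofReal y + ‖y - x‖ₑ`. -/
theorem pbt_ofReal_le (x y : ℝ) : ENNReal.ofReal x ≤ ENNReal.ofReal y + ‖y - x‖ₑ := by
  rw [Real.enorm_eq_ofReal_abs]
  refine le_trans (ENNReal.ofReal_le_ofReal ?_) ENNReal.ofReal_add_le
  have := neg_abs_le (y - x)
  linarith

/-- A nonnegative `C^1` function that tends to zero at both ends of a line: twice its value at a
point of the line is at most the integral of the norm of its derivative along the line. -/
theorem pbt_line (f : E 2 → ℝ) (hf1 : ContDiff ℝ 1 f) (p v : E 2) (hv : ‖v‖ = 1)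
    (htop : Filter.Tendsto (fun s : ℝ => f (p + s • v)) Filter.atTop (nhds 0))
    (hbot : Filter.Tendsto (fun s : ℝ => f (p + s • v)) Filter.atBot (nhds 0)) :
    2 * ENNReal.ofReal (f p) ≤ ∫⁻ s : ℝ, ‖fderiv ℝ f (p + s • v)‖ₑ := by
  have hp : f (p + (0 : ℝ) • v) = f p := by simp
  -- the right half line
  have hR : ENNReal.ofReal (f p) ≤ ∫⁻ s in Ioi (0 : ℝ), ‖fderiv ℝ f (p + s • v)‖ₑ := by
    have hlim : Filter.Tendsto (fun S : ℝ => ENNReal.ofReal (f (p + S • v)) +
        ∫⁻ s in Ioi (0 : ℝ), ‖fderiv ℝ f (p + s • v)‖ₑ) Filter.atTop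
        (nhds (0 + ∫⁻ s in Ioi (0 : ℝ), ‖fderiv ℝ f (p + s • v)‖ₑ)) := by
      have h1 := ENNReal.tendsto_ofReal htop
      rw [ENNReal.ofReal_zero] at h1
      exact h1.add tendsto_const_nhds
    rw [zero_add] at hlim
    refine ge_of_tendsto hlim ?_
    filter_upwards [Filter.eventually_ge_atTop (0 : ℝ)] with S hS
    have h1 := pbt_ofReal_le (f p) (f (p + S • v))
    have h2 := pbt_step f hf1 p v hv 0 S hS
    rw [hp] at h2
    have h3 : ∫⁻ s in Ioc (0 : ℝ) S, ‖fderiv ℝ f (p + s • v)‖ₑ ≤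
        ∫⁻ s in Ioi (0 : ℝ), ‖fderiv ℝ f (p + s • v)‖ₑ :=
      lintegral_mono_set Ioc_subset_Ioi_self
    exact h1.trans (add_le_add le_rfl (h2.trans h3))
  -- the left half line
  have hL : ENNReal.ofReal (f p) ≤ ∫⁻ s in Iic (0 : ℝ), ‖fderiv ℝ f (p + s • v)‖ₑ := by
    have hlim : Filter.Tendsto (fun S : ℝ => ENNReal.ofReal (f (p + S • v)) +
        ∫⁻ s in Iic (0 : ℝ), ‖fderiv ℝ f (p + s • v)‖ₑ) Filter.atBot
        (nhds (0 + ∫⁻ s in Iic (0 : ℝ), ‖fderiv ℝ f (p + s • v)‖ₑ)) := by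
      have h1 := ENNReal.tendsto_ofReal hbot
      rw [ENNReal.ofReal_zero] at h1
      exact h1.add tendsto_const_nhds
    rw [zero_add] at hlim
    refine ge_of_tendsto hlim ?_
    filter_upwards [Filter.eventually_le_atBot (0 : ℝ)] with S hS
    have h1 := pbt_ofReal_le (f p) (f (p + S • v))
    have h2 := pbt_step f hf1 p v hv S 0 hS
    rw [hp, enorm_sub_rev] at h2
    have h3 : ∫⁻ s in Ioc S (0 : ℝ), ‖fderiv ℝ f (p + s • v)‖ₑ ≤
        ∫⁻ s in Iic (0 : ℝ), ‖fderiv ℝ f (p + s • v)‖ₑ :=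
      lintegral_mono_set Ioc_subset_Iic_self
    exact h1.trans (add_le_add le_rfl (h2.trans h3))
  have hsplit := lintegral_add_compl (μ := (volume : Measure ℝ))
    (fun s : ℝ => ‖fderiv ℝ f (p + s • v)‖ₑ) (measurableSet_Iic (a := (0 : ℝ)))
  rw [compl_Iic] at hsplit
  rw [← hsplit, two_mul]
  exact add_le_add hL hR

/-- Decay of a nonnegative integrable block-decreasing function. -/
theorem pbt_decay (f : E 2 → ℝ) (hf : BlockAnti f) (hf0 : ∀ x, 0 ≤ f x) (hfc : Continuous f)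
    (hfi : Integrable f) (y : E 2) : f y * (|y 0| * |y 1|) ≤ ∫ x, f x := by
  have hI : ENNReal.ofReal (∫ x, f x) = ∫⁻ x, ENNReal.ofReal (f x) :=
    ofReal_integral_eq_lintegral_ofReal hfi (Filter.Eventually.of_forall hf0)
  have hmeas : Measurable (fun x : E 2 => ENNReal.ofReal (f x)) :=
    ENNReal.measurable_ofReal.comp hfc.measurable
  have hint0 : 0 ≤ ∫ x, f x := integral_nonneg hf0
  have hkey : ENNReal.ofReal (f y) * ENNReal.ofReal |y 1| * ENNReal.ofReal |y 0| ≤
      ∫⁻ x, ENNReal.ofReal (f x) := by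
    rw [lintegral_E2 _ hmeas]
    calc ENNReal.ofReal (f y) * ENNReal.ofReal |y 1| * ENNReal.ofReal |y 0|
        = ∫⁻ _ in Icc 0 |y 0|, ENNReal.ofReal (f y) * ENNReal.ofReal |y 1| := by
          rw [setLIntegral_const, Real.volume_Icc, sub_zero]
      _ ≤ ∫⁻ a in Icc 0 |y 0|, ∫⁻ b, ENNReal.ofReal (f (pt a b)) := by
          refine setLIntegral_mono' measurableSet_Icc (fun a ha => ?_)
          calc ENNReal.ofReal (f y) * ENNReal.ofReal |y 1|
              = ∫⁻ _ in Icc 0 |y 1|, ENNReal.ofReal (f y) := by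
                rw [setLIntegral_const, Real.volume_Icc, sub_zero]
            _ ≤ ∫⁻ b in Icc 0 |y 1|, ENNReal.ofReal (f (pt a b)) := by
                refine setLIntegral_mono' measurableSet_Icc (fun b hb => ?_)
                apply ENNReal.ofReal_le_ofReal
                apply hf (pt a b) y
                · rw [pt_zero, abs_of_nonneg ha.1]
                  exact ha.2
                · rw [pt_one, abs_of_nonneg hb.1]
                  exact hb.2
            _ ≤ ∫⁻ b, ENNReal.ofReal (f (pt a b)) := setLIntegral_le_lintegral _ _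
      _ ≤ ∫⁻ a, ∫⁻ b, ENNReal.ofReal (f (pt a b)) := setLIntegral_le_lintegral _ _
  rw [← hI, ← ENNReal.ofReal_mul (hf0 y),
    ← ENNReal.ofReal_mul (mul_nonneg (hf0 y) (abs_nonneg _)),
    ENNReal.ofReal_le_ofReal_iff hint0] at hkey
  linarith

/-- ROW PB-5. -/
theorem lintegral_axis_le (f : E 2 → ℝ) (hf : BlockAnti f) (hf0 : ∀ x, 0 ≤ f x)
    (hf1 : ContDiff ℝ 1 f) (hfi : Integrable f) :
    (∫⁻ t : ℝ, ENNReal.ofReal (f (pt t 0))) ≤ 2⁻¹ * ∫⁻ x : E 2, ‖fderiv ℝ f x‖ₑ ∧
    (∫⁻ t : ℝ, ENNReal.ofReal (f (pt 0 t))) ≤ 2⁻¹ * ∫⁻ x : E 2, ‖fderiv ℝ f x‖ₑ := by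
  have hJm : Measurable (fun x : E 2 => ‖fderiv ℝ f x‖ₑ) :=
    (hf1.continuous_fderiv one_ne_zero).enorm.measurable
  have hfc : Continuous f := hf1.continuous
  have h0 : ∀ᵐ t : ℝ, t ≠ 0 := by
    rw [ae_iff]
    simp
  have hhalf : ∀ X J : ℝ≥0∞, 2 * X ≤ J → X ≤ 2⁻¹ * J := by
    intro X J h
    calc X = 2⁻¹ * (2 * X) := by
          rw [← mul_assoc, ENNReal.inv_mul_cancel two_ne_zero ENNReal.ofNat_ne_top, one_mul]
      _ ≤ 2⁻¹ * J := by gcongr
  -- decay along lines
  have hC : ∀ (c : ℝ) (g : ℝ → ℝ), (∀ s, 0 ≤ g s) → (∀ s, g s * |s| ≤ c) →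
      Filter.Tendsto g Filter.atTop (nhds 0) ∧ Filter.Tendsto g Filter.atBot (nhds 0) := by
    intro c g hg0 hgc
    have hb : ∀ s : ℝ, s ≠ 0 → g s ≤ c / |s| := by
      intro s hs
      rw [le_div_iff₀ (abs_pos.mpr hs)]
      exact hgc s
    have hT1 : Filter.Tendsto (fun s : ℝ => c / |s|) Filter.atTop (nhds 0) :=
      Filter.Tendsto.div_atTop (tendsto_const_nhds (x := c)) Filter.tendsto_abs_atTop_atTop
    have hT2 : Filter.Tendsto (fun s : ℝ => c / |s|) Filter.atBot (nhds 0) :=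
      Filter.Tendsto.div_atTop (tendsto_const_nhds (x := c)) Filter.tendsto_abs_atBot_atTop
    constructor
    · refine squeeze_zero' (Filter.Eventually.of_forall hg0) ?_ hT1
      filter_upwards [Filter.eventually_gt_atTop (0 : ℝ)] with s hs
      exact hb s hs.ne'
    · refine squeeze_zero' (Filter.Eventually.of_forall hg0) ?_ hT2
      filter_upwards [Filter.eventually_lt_atBot (0 : ℝ)] with s hs
      exact hb s hs.ne
  constructor
  · apply hhalf
    rw [← lintegral_const_mul' _ _ ENNReal.ofNat_ne_top, lintegral_E2 _ hJm]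
    refine lintegral_mono_ae ?_
    filter_upwards [h0] with t ht
    have hline : ∀ s : ℝ, pt t 0 + s • pt 0 1 = pt t s := by
      intro s
      rw [smul_pt, pt_add]
      simp
    have hd := hC ((∫ x, f x) / |t|) (fun s => f (pt t s)) (fun s => hf0 _) (by
      intro s
      have h := pbt_decay f hf hf0 hfc hfi (pt t s)
      rw [pt_zero, pt_one] at h
      rw [le_div_iff₀ (abs_pos.mpr ht)]
      linarith)
    have hl := pbt_line f hf1 (pt t 0) (pt 0 1) (by rw [norm_pt_zero_left]; simp)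
      (by simpa only [hline] using hd.1) (by simpa only [hline] using hd.2)
    simpa only [hline] using hl
  · apply hhalf
    rw [← lintegral_const_mul' _ _ ENNReal.ofNat_ne_top, lintegral_E2' _ hJm]
    refine lintegral_mono_ae ?_
    filter_upwards [h0] with t ht
    have hline : ∀ s : ℝ, pt 0 t + s • pt 1 0 = pt s t := by
      intro s
      rw [smul_pt, pt_add]
      simp
    have hd := hC ((∫ x, f x) / |t|) (fun s => f (pt s t)) (fun s => hf0 _) (by
      intro s
      have h := pbt_decay f hf hf0 hfc hfi (pt s t)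
      rw [pt_zero, pt_one] at h
      rw [le_div_iff₀ (abs_pos.mpr ht)]
      linarith)
    have hl := pbt_line f hf1 (pt 0 t) (pt 1 0) (by rw [norm_pt_zero_right]; simp)
      (by simpa only [hline] using hd.1) (by simpa only [hline] using hd.2)
    simpa only [hline] using hl

end Vale.Agent.H76.P137B
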