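import Mathlib
import Vale.Agent.H76.P137B.Defs
import Vale.Agent.H76.P137B.Coord
import Vale.Agent.H76.P137B.Mono
import Vale.Agent.H76.P137B.Point
import Vale.Agent.H76.P137B.AxisInt
import Vale.Agent.H76.P137B.Trace
import Vale.Agent.H70.P137.Hardy
import Vale.Agent.H70.P137.Mono
import Vale.Agent.H70.P137.HardyFin

/-!
# P137 block-decreasing project, row PB-10: the integral of `cM f` along an axis

ROW PB-10 (proved; the statement is kept exactly; helper lemmas: stem `pbx_`).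
ASSEMBLY of the rows PB-3, PB-4, PB-5 and the Hardy inequality; use their statements as stated
(they may still be stubs when you start).

For `f ≥ 0` block-decreasing, `C^1`, integrable, with `J = ∫⁻ x, ‖fderiv ℝ f x‖ₑ`:
`∫ cM f (t, 0) dt ≤ (1 + 24/π) J` and `∫ cM f (0, t) dt ≤ (1 + 24/π) J`.

Proof of the first (second: symmetric).  `f ≤ f 0` by `BlockAnti` (take `x = 0`), `f` is continuous.
For `t ≠ 0`, `cM_le_axis` at `x = pt t 0` (`x 1 = 0`, `x ≠ 0` because `x 0 = t`), with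
`(1/2) • pt t 0 = pt (t/2) 0` (`smul_pt`) and `‖pt t 0‖ = |t|` (`norm_pt_zero_right`):
`cM f (pt t 0) ≤ f (pt (t/2) 0) + 9 * cA f (3/2 * |t|)`; `t = 0` is a null set.  Hence
`∫⁻ t, ofReal (cM f (pt t 0)) ≤ ∫⁻ t, ofReal (f (pt (t/2) 0)) + 9 * ∫⁻ t, ofReal (cA f (3/2 * |t|))`
(`ENNReal.ofReal_add_le`, `lintegral_add_left`, `lintegral_const_mul`; `cA f R ≥ 0` by `cA_nonneg`).
First term: `∫⁻ t, φ (t/2) = 2 * ∫⁻ t, φ t` on the line (`lintegral_comp_mul_left`-type lemma, or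
`Measure.map` of `t ↦ t/2` via `Real.map_volume_mul_left`), and `∫⁻ t, ofReal (f (pt t 0)) ≤ 2⁻¹ * J`
(`lintegral_axis_le`, row PB-5): total `≤ J`.  Second term: `lintegral_cA_axis` (row PB-4) and
`Iw f ≤ 2 * J` (`Iw_le_two_mul_gen` with `d = 2`, using `Vale.Agent.H70.P137.Iw_lt_top` for
`Iw f < ⊤`): `9 * ofReal (4 / (3 π)) * 2 * J = ofReal (24 / π) * J`.
-/

open MeasureTheory Metric Set
open scoped ENNReal

namespace Vale.Agent.H76.P137B

open Vale.Agent.H70.P137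

theorem pbx_half (φ : ℝ → ℝ≥0∞) (hφ : Measurable φ) :
    ∫⁻ t : ℝ, φ (t / 2) = 2 * ∫⁻ t : ℝ, φ t := by
  have h2 : ((1 : ℝ) / 2) ≠ 0 := by norm_num
  have hm : Measurable (fun t : ℝ => (1 / 2 : ℝ) * t) := measurable_const_mul _
  have h1 : ∫⁻ t : ℝ, φ (t / 2)
      = ∫⁻ t, φ t ∂(Measure.map (fun t : ℝ => (1 / 2 : ℝ) * t) volume) := by
    rw [lintegral_map hφ hm]
    congr 1
    ext t
    congr 1
    ring
  rw [h1, Real.map_volume_mul_left h2, lintegral_smul_measure, smul_eq_mul]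
  congr 1
  rw [show |((1 : ℝ) / 2)⁻¹| = 2 by norm_num]
  simp

theorem pbx_core (f : E 2 → ℝ) (hf : BlockAnti f) (hf0 : ∀ x, 0 ≤ f x)
    (hf1 : ContDiff ℝ 1 f) (hfi : Integrable f) (P : ℝ → E 2) (hPc : Continuous P)
    (hP0 : ∀ t, t ≠ 0 → P t ≠ 0) (hax : ∀ t, (P t) 0 = 0 ∨ (P t) 1 = 0)
    (hhalf : ∀ t, (1 / 2 : ℝ) • P t = P (t / 2)) (hnorm : ∀ t, ‖P t‖ = |t|)
    (hJ : (∫⁻ t : ℝ, ENNReal.ofReal (f (P t))) ≤ 2⁻¹ * ∫⁻ x : E 2, ‖fderiv ℝ f x‖ₑ) :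
    (∫⁻ t : ℝ, ENNReal.ofReal (cM f (P t)))
        ≤ ENNReal.ofReal (1 + 24 / Real.pi) * ∫⁻ x : E 2, ‖fderiv ℝ f x‖ₑ := by
  set J : ℝ≥0∞ := ∫⁻ x : E 2, ‖fderiv ℝ f x‖ₑ with hJdef
  have hfc : Continuous f := hf1.continuous
  have hc : ∀ y, f y ≤ f 0 := by
    intro y
    apply hf 0 y
    · simp
    · simp
  have hpt : ∀ t : ℝ, t ≠ 0 →
      ENNReal.ofReal (cM f (P t)) ≤ ENNReal.ofReal (f (P (t / 2)))
        + ENNReal.ofReal 9 * ENNReal.ofReal (cA f (3 / 2 * |t|)) := by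
    intro t ht
    have h := cM_le_axis f hf hf0 hfc (f 0) hc (P t) (hP0 t ht) (hax t)
    rw [hhalf, hnorm] at h
    calc ENNReal.ofReal (cM f (P t))
        ≤ ENNReal.ofReal (f (P (t / 2)) + 9 * cA f (3 / 2 * |t|)) :=
          ENNReal.ofReal_le_ofReal h
      _ ≤ ENNReal.ofReal (f (P (t / 2))) + ENNReal.ofReal (9 * cA f (3 / 2 * |t|)) :=
          ENNReal.ofReal_add_le
      _ = _ := by rw [ENNReal.ofReal_mul (by norm_num : (0 : ℝ) ≤ 9)]
  have hae : ∀ᵐ t : ℝ, ENNReal.ofReal (cM f (P t)) ≤ ENNReal.ofReal (f (P (t / 2)))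
        + ENNReal.ofReal 9 * ENNReal.ofReal (cA f (3 / 2 * |t|)) := by
    have h0 : ({0}ᶜ : Set ℝ) ∈ ae (volume : Measure ℝ) :=
      compl_mem_ae_iff.mpr (measure_singleton 0)
    filter_upwards [h0] with t ht
    exact hpt t ht
  have hφm : Measurable (fun t : ℝ => ENNReal.ofReal (f (P t))) :=
    ENNReal.measurable_ofReal.comp (hfc.comp hPc).measurable
  have hφm2 : Measurable (fun t : ℝ => ENNReal.ofReal (f (P (t / 2)))) :=
    hφm.comp (by fun_prop : Measurable (fun t : ℝ => t / 2))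
  have hI : Iw f ≤ 2 * J := Iw_le_two_mul_gen (d := 2) le_rfl f hf0 hf1
    (Iw_lt_top le_rfl f hf0 (f 0) hc hfc hfi)
  have hA := lintegral_cA_axis f hf0 hfc
  have hfirst : (∫⁻ t : ℝ, ENNReal.ofReal (f (P (t / 2)))) ≤ J := by
    rw [pbx_half (fun t => ENNReal.ofReal (f (P t))) hφm]
    calc 2 * ∫⁻ t : ℝ, ENNReal.ofReal (f (P t)) ≤ 2 * (2⁻¹ * J) := by gcongr
      _ = J := by
          rw [← mul_assoc, ENNReal.mul_inv_cancel (by norm_num) (by norm_num), one_mul]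
  have hsecond : (∫⁻ t : ℝ, ENNReal.ofReal (cA f (3 / 2 * |t|)))
      ≤ ENNReal.ofReal (4 / (3 * Real.pi)) * (2 * J) := hA.trans (by gcongr)
  calc (∫⁻ t : ℝ, ENNReal.ofReal (cM f (P t)))
      ≤ ∫⁻ t : ℝ, (ENNReal.ofReal (f (P (t / 2)))
        + ENNReal.ofReal 9 * ENNReal.ofReal (cA f (3 / 2 * |t|))) := lintegral_mono_ae hae
    _ = (∫⁻ t : ℝ, ENNReal.ofReal (f (P (t / 2))))
        + ENNReal.ofReal 9 * ∫⁻ t : ℝ, ENNReal.ofReal (cA f (3 / 2 * |t|)) := by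
        rw [lintegral_add_left hφm2, lintegral_const_mul' _ _ ENNReal.ofReal_ne_top]
    _ ≤ J + ENNReal.ofReal 9 * (ENNReal.ofReal (4 / (3 * Real.pi)) * (2 * J)) := by
        gcongr
    _ = ENNReal.ofReal (1 + 24 / Real.pi) * J := by
        have hpi : 0 < Real.pi := Real.pi_pos
        have h2 : (2 : ℝ≥0∞) = ENNReal.ofReal 2 := by simp
        rw [ENNReal.ofReal_add zero_le_one (by positivity), ENNReal.ofReal_one, add_mul, one_mul]
        congr 1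
        rw [h2, ← mul_assoc, ← mul_assoc, ← ENNReal.ofReal_mul (by norm_num : (0 : ℝ) ≤ 9),
          ← ENNReal.ofReal_mul (by positivity)]
        congr 2
        field_simp
        ring

/-- ROW PB-10. -/
theorem lintegral_cM_axis_le (f : E 2 → ℝ) (hf : BlockAnti f) (hf0 : ∀ x, 0 ≤ f x)
    (hf1 : ContDiff ℝ 1 f) (hfi : Integrable f) :
    (∫⁻ t : ℝ, ENNReal.ofReal (cM f (pt t 0)))
        ≤ ENNReal.ofReal (1 + 24 / Real.pi) * ∫⁻ x : E 2, ‖fderiv ℝ f x‖ₑ ∧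
    (∫⁻ t : ℝ, ENNReal.ofReal (cM f (pt 0 t)))
        ≤ ENNReal.ofReal (1 + 24 / Real.pi) * ∫⁻ x : E 2, ‖fderiv ℝ f x‖ₑ := by
  obtain ⟨h1, h2⟩ := lintegral_axis_le f hf hf0 hf1 hfi
  refine ⟨pbx_core f hf hf0 hf1 hfi (fun t => pt t 0) ?_ ?_ ?_ ?_ ?_ h1,
    pbx_core f hf hf0 hf1 hfi (fun t => pt 0 t) ?_ ?_ ?_ ?_ ?_ h2⟩
  · exact continuous_pt.comp (by fun_prop : Continuous (fun t : ℝ => (t, (0 : ℝ))))
  · intro t ht h
    apply ht
    have h' := congrArg (fun v : E 2 => v 0) h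
    simpa using h'
  · intro t
    right
    simp
  · intro t
    rw [smul_pt]
    congr 1 <;> ring
  · intro t
    exact norm_pt_zero_right t
  · exact continuous_pt.comp (by fun_prop : Continuous (fun t : ℝ => ((0 : ℝ), t)))
  · intro t ht h
    apply ht
    have h' := congrArg (fun v : E 2 => v 1) h
    simpa using h'
  · intro t
    left
    simp
  · intro t
    rw [smul_pt]
    congr 1 <;> ring
  · intro t
    exact norm_pt_zero_left t

end Vale.Agent.H76.P137B
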