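import Mathlib
import Vale.Agent.H76.P137B.Defs

/-!
# P137 block-decreasing project, row PB-6: a directional derivative and difference quotients

ROW PB-6 (statement kept exactly; helper lemmas: stem `pbd_`).

If `u (x + v / n) ≤ u x` for all `n`, then
`|fderiv ℝ u x v| ≤ liminf_n n * (u x - u (x + v / n))` (as extended nonnegative reals).

Proof. If `u` is not differentiable at `x` then `fderiv ℝ u x = 0` (`fderiv_zero_of_not_differentiableAt`)
and the left side is `0`.  If it is, then `n * (u (x + (1/n) • v) - u x) → fderiv ℝ u x v`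
(`HasFDerivAt.lim` along `c n = n`, `d n = (1/n) • v`, or the line derivative
`HasFDerivAt.hasLineDerivAt` composed with `1/n → 0`); every term is `≤ 0`, so the limit `L` is
`≤ 0`, `‖L‖ = -L`, and `n * (u x - u (x + (1/n) • v)) → -L ≥ 0`; hence the sequence
`ENNReal.ofReal (n * (u x - u (x + (1/n) • v)))` tends to `ENNReal.ofReal (-L) = ‖L‖ₑ`
(`ENNReal.continuous_ofReal`, `Real.enorm_eq_ofReal_abs` / `ofReal_norm`), and a convergent
sequence has `liminf` equal to its limit (`Filter.Tendsto.liminf_eq`).  (Compare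
`Vale.Agent.H70.P137.Grad`, which does the same along a ray.)
-/

open MeasureTheory Filter
open scoped ENNReal

namespace Vale.Agent.H76.P137B

open Vale.Agent.H70.P137

/-- ROW PB-6. -/
theorem enorm_fderiv_apply_le_liminf (u : E 2 → ℝ) (x v : E 2)
    (h : ∀ n : ℕ, u (x + (1 / (n : ℝ)) • v) ≤ u x) :
    ‖fderiv ℝ u x v‖ₑ ≤ liminf
      (fun n : ℕ => ENNReal.ofReal ((n : ℝ) * (u x - u (x + (1 / (n : ℝ)) • v)))) atTop := by
  by_cases hd : DifferentiableAt ℝ u x
  · have hf := hd.hasFDerivAt
    have hc : Tendsto (fun n : ℕ => ‖(n : ℝ)‖) atTop atTop := by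
      have hnorm : (fun n : ℕ => ‖(n : ℝ)‖) = fun n : ℕ => (n : ℝ) := by
        funext n
        rw [Real.norm_eq_abs, abs_of_nonneg (Nat.cast_nonneg n)]
      rw [hnorm]
      exact tendsto_natCast_atTop_atTop
    have hlim := hf.lim v hc
    have hlim' : Tendsto (fun n : ℕ => (n : ℝ) * (u (x + (1 / (n : ℝ)) • v) - u x)) atTop
        (nhds (fderiv ℝ u x v)) := by
      refine hlim.congr (fun n => ?_)
      rw [smul_eq_mul, one_div]
    have hL : fderiv ℝ u x v ≤ 0 := by
      refine le_of_tendsto' hlim' (fun n => ?_)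
      have hn := h n
      exact mul_nonpos_of_nonneg_of_nonpos (Nat.cast_nonneg n) (by linarith)
    have hneg : Tendsto (fun n : ℕ => (n : ℝ) * (u x - u (x + (1 / (n : ℝ)) • v))) atTop
        (nhds (-(fderiv ℝ u x v))) := by
      refine hlim'.neg.congr (fun n => ?_)
      ring
    have hE := ENNReal.tendsto_ofReal hneg
    rw [hE.liminf_eq, Real.enorm_eq_ofReal_abs, abs_of_nonpos hL]
  · rw [fderiv_zero_of_not_differentiableAt hd]
    simp

end Vale.Agent.H76.P137B
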