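import Mathlib
import Vale.Agent.H76.P137B.Defs
import Vale.Agent.H76.P137B.Coord

/-!
# P137 block-decreasing project, row PB-9: the norm of a linear functional on the plane

ROW PB-9 (DONE by helper28: proved, statement kept exactly; no helper lemma needed).

`‖L‖ ≤ |L (pt 1 0)| + |L (pt 0 1)|` for a continuous linear functional `L` on the Euclidean plane.

Proof. `ContinuousLinearMap.opNorm_le_bound`: for `v = pt a b` (`pt_eta`),
`v = a • pt 1 0 + b • pt 0 1` (`smul_pt`, `pt_add`), so `|L v| ≤ |a| |L (pt 1 0)| + |b| |L (pt 0 1)|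
≤ (|L (pt 1 0)| + |L (pt 0 1)|) ‖v‖`, because `|v 0| ≤ ‖v‖` and `|v 1| ≤ ‖v‖`
(`PiLp.norm_apply_le` or `EuclideanSpace.norm_eq` with `Fin.sum_univ_two`).  Then pass to `‖·‖ₑ`
(`enorm_eq_nnnorm` / `ofReal_norm`, `ENNReal.ofReal_add`, `ENNReal.ofReal_le_ofReal`).
-/

open MeasureTheory
open scoped ENNReal

namespace Vale.Agent.H76.P137B

open Vale.Agent.H70.P137

/-- ROW PB-9. -/
theorem enorm_le_add_apply (L : E 2 →L[ℝ] ℝ) : ‖L‖ₑ ≤ ‖L (pt 1 0)‖ₑ + ‖L (pt 0 1)‖ₑ := by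
  have h : ‖L‖ ≤ ‖L (pt 1 0)‖ + ‖L (pt 0 1)‖ := by
    apply ContinuousLinearMap.opNorm_le_bound _ (by positivity)
    intro v
    have hv : v = v 0 • pt 1 0 + v 1 • pt 0 1 := by
      rw [smul_pt, smul_pt, pt_add]
      simp [pt_eta]
    have h0 : |v 0| ≤ ‖v‖ := by simpa using PiLp.norm_apply_le v 0
    have h1 : |v 1| ≤ ‖v‖ := by simpa using PiLp.norm_apply_le v 1
    have hLv : L v = v 0 * L (pt 1 0) + v 1 * L (pt 0 1) := by
      conv_lhs => rw [hv]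
      simp [map_add, map_smul]
    rw [hLv, Real.norm_eq_abs, Real.norm_eq_abs, Real.norm_eq_abs]
    calc |v 0 * L (pt 1 0) + v 1 * L (pt 0 1)|
        ≤ |v 0 * L (pt 1 0)| + |v 1 * L (pt 0 1)| := abs_add_le _ _
      _ = |v 0| * |L (pt 1 0)| + |v 1| * |L (pt 0 1)| := by rw [abs_mul, abs_mul]
      _ ≤ ‖v‖ * |L (pt 1 0)| + ‖v‖ * |L (pt 0 1)| := by gcongr
      _ = (|L (pt 1 0)| + |L (pt 0 1)|) * ‖v‖ := by ring
  rw [← ofReal_norm, ← ofReal_norm, ← ofReal_norm,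
    ← ENNReal.ofReal_add (norm_nonneg _) (norm_nonneg _)]
  exact ENNReal.ofReal_le_ofReal h

end Vale.Agent.H76.P137B
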