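import Mathlib

/-!
# P137 block-decreasing project, row PB-7: a telescoping bound on the half line

ROW PB-7 (replace the `sorry`, keep the statement exactly; helper lemmas: stem `pbe_`).
Only Mathlib.

For `φ : ℝ → ℝ` continuous, nonnegative, nonincreasing on `[0, ∞)` and `h > 0`:
`∫⁻ b in (0, ∞), ofReal (φ b - φ (b + h)) ≤ ofReal (h * φ 0)`.

Proof. For every `S > 0`: `∫ b in 0..S, (φ b - φ (b + h)) = ∫ b in 0..S, φ b - ∫ b in h..(S+h), φ b
= ∫ b in 0..h, φ b - ∫ b in S..(S+h), φ b ≤ ∫ b in 0..h, φ b ≤ h * φ 0`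
(`intervalIntegral.integral_comp_add_right`, `intervalIntegral.integral_interval_sub_interval_comm`
or `integral_add_adjacent_intervals`; `φ ≥ 0`; `φ b ≤ φ 0` on `[0, h]`).  The integrand is `≥ 0` on
`(0, ∞)`, so `∫⁻ b in Ioc 0 S, ofReal (φ b - φ (b + h)) = ofReal (∫ b in 0..S, ...) ≤ ofReal (h * φ 0)`
(`ofReal_integral_eq_lintegral_ofReal`), and `∫⁻` over `Ioi 0` is the supremum (limit) of the
`∫⁻` over `Ioc 0 n` (`lintegral_iUnion_of_directed` / monotone convergence
`lintegral_tendsto_of_tendsto_of_monotone` with indicators, or `setLIntegral_iUnion_of_directed`).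
-/

open MeasureTheory Set
open scoped ENNReal

namespace Vale.Agent.H76.P137B

/-- The bound on a finite interval `[0, S]`. -/
theorem pbe_interval (φ : ℝ → ℝ) (hφc : Continuous φ) (hφ0 : ∀ b, 0 ≤ φ b)
    (hφ : AntitoneOn φ (Set.Ici 0)) (h : ℝ) (hh : 0 < h) (S : ℝ) :
    ∫ b in (0 : ℝ)..S, (φ b - φ (b + h)) ≤ h * φ 0 := by
  have hi : ∀ a b : ℝ, IntervalIntegrable φ volume a b := fun a b => hφc.intervalIntegrable a b
  have hsh : Continuous (fun b => φ (b + h)) := hφc.comp (continuous_id.add continuous_const)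
  rw [intervalIntegral.integral_sub (hi 0 S) (hsh.intervalIntegrable 0 S),
    intervalIntegral.integral_comp_add_right (fun x => φ x) h, zero_add,
    intervalIntegral.integral_interval_sub_interval_comm (hi 0 S) (hi h (S + h)) (hi 0 h)]
  have h1 : 0 ≤ ∫ b in S..(S + h), φ b :=
    intervalIntegral.integral_nonneg (by linarith) (fun b _ => hφ0 b)
  have h2 : ∫ b in (0 : ℝ)..h, φ b ≤ ∫ _b in (0 : ℝ)..h, φ 0 := by
    apply intervalIntegral.integral_mono_on hh.le (hi 0 h) intervalIntegrable_const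
    intro b hb
    exact hφ (Set.mem_Ici.mpr le_rfl) (Set.mem_Ici.mpr hb.1) hb.1
  rw [intervalIntegral.integral_const, sub_zero, smul_eq_mul] at h2
  linarith

/-- ROW PB-7. -/
theorem lintegral_tele_le (φ : ℝ → ℝ) (hφc : Continuous φ) (hφ0 : ∀ b, 0 ≤ φ b)
    (hφ : AntitoneOn φ (Set.Ici 0)) (h : ℝ) (hh : 0 < h) :
    ∫⁻ b in Set.Ioi (0 : ℝ), ENNReal.ofReal (φ b - φ (b + h)) ≤ ENNReal.ofReal (h * φ 0) := by
  have hf_nonneg : ∀ b : ℝ, 0 ≤ b → 0 ≤ φ b - φ (b + h) := by
    intro b hb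
    have h1 := hφ (Set.mem_Ici.mpr hb) (Set.mem_Ici.mpr (by linarith : (0 : ℝ) ≤ b + h))
      (by linarith : b ≤ b + h)
    linarith
  have hfc : Continuous (fun b => φ b - φ (b + h)) :=
    hφc.sub (hφc.comp (continuous_id.add continuous_const))
  have hU : Set.Ioi (0 : ℝ) = ⋃ n : ℕ, Set.Ioc (0 : ℝ) n := by
    ext b
    simp only [Set.mem_Ioi, Set.mem_iUnion, Set.mem_Ioc]
    constructor
    · intro hb
      obtain ⟨n, hn⟩ := exists_nat_ge b
      exact ⟨n, hb, hn⟩
    · rintro ⟨n, hb, _⟩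
      exact hb
  have hdir : Directed (· ⊆ ·) (fun n : ℕ => Set.Ioc (0 : ℝ) n) := by
    apply directed_of_isDirected_le
    intro m n hmn
    exact Set.Ioc_subset_Ioc_right (by exact_mod_cast hmn)
  rw [hU, setLIntegral_iUnion_of_directed _ hdir]
  apply iSup_le
  intro n
  have hint : IntegrableOn (fun b => φ b - φ (b + h)) (Set.Ioc (0 : ℝ) n) :=
    (hfc.integrableOn_Icc).mono_set Set.Ioc_subset_Icc_self
  have hnn : 0 ≤ᵐ[volume.restrict (Set.Ioc (0 : ℝ) n)] fun b => φ b - φ (b + h) := by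
    refine (ae_restrict_iff' measurableSet_Ioc).mpr (Filter.Eventually.of_forall fun b hb => ?_)
    exact hf_nonneg b hb.1.le
  rw [← ofReal_integral_eq_lintegral_ofReal hint hnn]
  apply ENNReal.ofReal_le_ofReal
  rw [← intervalIntegral.integral_of_le (Nat.cast_nonneg n)]
  exact pbe_interval φ hφc hφ0 hφ h hh n

end Vale.Agent.H76.P137B
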