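import Mathlib
import Vale.Agent.H76.P137B.Defs
import Vale.Agent.H76.P137B.Coord
import Vale.Agent.H76.P137B.Deriv
import Vale.Agent.H76.P137B.Tele

/-!
# P137 block-decreasing project, row PB-8: coordinate derivatives and the integral along an axis

ROW PB-8 (replace the `sorry`, keep the statement exactly; helper lemmas: stem `pbs_`).

For `u ≥ 0` continuous and block-decreasing on the plane:
`∫ |∂u/∂x₁| ≤ 2 ∫ u(t, 0) dt` and `∫ |∂u/∂x₀| ≤ 2 ∫ u(0, t) dt`, where the coordinate derivatives are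
`fderiv ℝ u x (pt 0 1)` and `fderiv ℝ u x (pt 1 0)` (zero where `u` is not differentiable).

Proof of the first (the second is symmetric, with `lintegral_E2'`).
Put `G x = ‖fderiv ℝ u x (pt 0 1)‖ₑ` (measurable: `measurable_fderiv_apply_const`) and for `n ≥ 1`,
`g n (pt a b) = ofReal (n * (u (pt a b) - u (pt a (b + 1/n))))` if `b > 0`,
`ofReal (n * (u (pt a b) - u (pt a (b - 1/n))))` if `b < 0` (anything, e.g. `0`, if `b = 0`);
`g n` is measurable (`u` continuous; piecewise on the measurable sets `{x 1 > 0}`, `{x 1 < 0}`).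
(a) Pointwise, for `b ≠ 0`: `G (pt a b) ≤ liminf_n g n (pt a b)`.  For `b > 0` this is
`enorm_fderiv_apply_le_liminf` (row PB-6, as stated) with `v = pt 0 1`:
`pt a b + (1/n) • pt 0 1 = pt a (b + 1/n)` (`smul_pt`, `pt_add`) and `u (pt a (b + 1/n)) ≤ u (pt a b)`
by `BlockAnti` (`|b| ≤ |b + 1/n|`).  For `b < 0` use `v = pt 0 (-1) = -pt 0 1`
(`‖L (-w)‖ₑ = ‖L w‖ₑ`) and `|b| ≤ |b - 1/n|`.
(b) By `lintegral_E2` and Fatou (`lintegral_liminf_le`), and because `{b = 0}` is a null set of `ℝ`: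
`∫⁻ x, G x = ∫⁻ a, ∫⁻ b, G (pt a b) ≤ ∫⁻ a, ∫⁻ b, liminf_n g n (pt a b) ≤ liminf_n ∫⁻ a, ∫⁻ b, g n (pt a b)`
(apply Fatou on the plane to `g n`, then `lintegral_E2`; or twice in one variable).
(c) For fixed `a` and `n ≥ 1`, with `φ b = u (pt a b)` (continuous, `≥ 0`, antitone on `[0, ∞)`, and
even: `φ (-b) = φ b`, both from `BlockAnti`): the part `b > 0` of `∫⁻ b, g n (pt a b)` is
`ofReal n * ∫⁻ b in Ioi 0, ofReal (φ b - φ (b + 1/n)) ≤ ofReal n * ofReal ((1/n) * φ 0) = ofReal (φ 0)`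
by `lintegral_tele_le` (row PB-7, as stated); the part `b < 0` is the same integral after `b ↦ -b`
(`lintegral_comp_neg`-type change of variables, or apply PB-7 to `b ↦ φ (-b) = φ b`).  So
`∫⁻ b, g n (pt a b) ≤ 2 * ofReal (u (pt a 0))`, and integrating in `a` gives the claim.
-/

open MeasureTheory Metric Set Filter
open scoped ENNReal

namespace Vale.Agent.H76.P137B

open Vale.Agent.H70.P137

/-- The difference quotients on the half line, for one `n ≥ 1` (from row PB-7). -/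
theorem pbs_bound (φ : ℝ → ℝ) (hφc : Continuous φ) (hφ0 : ∀ b, 0 ≤ φ b)
    (hφ : AntitoneOn φ (Set.Ici 0)) (n : ℕ) (hn : 1 ≤ n) :
    ∫⁻ b in Ioi (0 : ℝ), ENNReal.ofReal ((n : ℝ) * (φ b - φ (b + 1 / (n : ℝ))))
      ≤ ENNReal.ofReal (φ 0) := by
  have hn0 : (0 : ℝ) < n := by exact_mod_cast hn
  have h1 : ∀ b : ℝ, ENNReal.ofReal ((n : ℝ) * (φ b - φ (b + 1 / (n : ℝ)))) =
      ENNReal.ofReal (n : ℝ) * ENNReal.ofReal (φ b - φ (b + 1 / (n : ℝ))) := fun b =>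
    ENNReal.ofReal_mul hn0.le
  simp only [h1]
  rw [lintegral_const_mul' _ _ ENNReal.ofReal_ne_top]
  have h2 := lintegral_tele_le φ hφc hφ0 hφ (1 / (n : ℝ)) (by positivity)
  calc ENNReal.ofReal (n : ℝ) * ∫⁻ b in Ioi (0 : ℝ), ENNReal.ofReal (φ b - φ (b + 1 / (n : ℝ)))
      ≤ ENNReal.ofReal (n : ℝ) * ENNReal.ofReal (1 / (n : ℝ) * φ 0) := by
        gcongr
    _ = ENNReal.ofReal (φ 0) := by
        rw [← ENNReal.ofReal_mul hn0.le]
        congr 1
        field_simp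

/-- One half line of one line of the plane, in a general frame. -/
theorem pbs_half (u : E 2 → ℝ) (hu0 : ∀ x, 0 ≤ u x) (huc : Continuous u) (w : E 2)
    (r : ℝ → E 2) (hrc : Continuous r) (hadd : ∀ b s : ℝ, r b + s • w = r (b + s))
    (hmono : ∀ b b' : ℝ, |b| ≤ |b'| → u (r b') ≤ u (r b)) :
    ∫⁻ b in Ioi (0 : ℝ), ‖fderiv ℝ u (r b) w‖ₑ ≤ ENNReal.ofReal (u (r 0)) := by
  have hpt : ∀ b ∈ Ioi (0 : ℝ), ‖fderiv ℝ u (r b) w‖ₑ ≤
      liminf (fun n : ℕ =>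
        ENNReal.ofReal ((n : ℝ) * (u (r b) - u (r (b + 1 / (n : ℝ)))))) atTop := by
    intro b hb
    have hb0 : (0 : ℝ) < b := hb
    have h := enorm_fderiv_apply_le_liminf u (r b) w (fun n => by
      rw [hadd]
      apply hmono
      have hn : (0 : ℝ) ≤ 1 / (n : ℝ) := by positivity
      rw [abs_of_pos hb0, abs_of_nonneg (by linarith)]
      linarith)
    simp only [hadd] at h
    exact h
  have hmeas : ∀ n : ℕ, Measurable (fun b : ℝ =>
      ENNReal.ofReal ((n : ℝ) * (u (r b) - u (r (b + 1 / (n : ℝ)))))) := by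
    intro n
    exact (ENNReal.continuous_ofReal.comp (continuous_const.mul ((huc.comp hrc).sub
      (huc.comp (hrc.comp (continuous_id.add continuous_const)))))).measurable
  have hφ : AntitoneOn (fun b => u (r b)) (Set.Ici 0) := by
    intro b hb b' hb' hbb
    apply hmono
    rw [abs_of_nonneg hb, abs_of_nonneg hb']
    exact hbb
  calc ∫⁻ b in Ioi (0 : ℝ), ‖fderiv ℝ u (r b) w‖ₑ
      ≤ ∫⁻ b in Ioi (0 : ℝ), liminf (fun n : ℕ =>
          ENNReal.ofReal ((n : ℝ) * (u (r b) - u (r (b + 1 / (n : ℝ)))))) atTop :=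
        setLIntegral_mono' measurableSet_Ioi hpt
    _ ≤ liminf (fun n : ℕ => ∫⁻ b in Ioi (0 : ℝ),
          ENNReal.ofReal ((n : ℝ) * (u (r b) - u (r (b + 1 / (n : ℝ)))))) atTop :=
        lintegral_liminf_le hmeas
    _ ≤ ENNReal.ofReal (u (r 0)) := by
        apply liminf_le_of_frequently_le'
        apply Eventually.frequently
        filter_upwards [eventually_ge_atTop 1] with n hn
        exact pbs_bound (fun b => u (r b)) (huc.comp hrc) (fun b => hu0 _) hφ n hn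

/-- One line of the plane, in a general frame. -/
theorem pbs_line (u : E 2 → ℝ) (hu0 : ∀ x, 0 ≤ u x) (huc : Continuous u) (w : E 2)
    (r : ℝ → E 2) (hrc : Continuous r) (hadd : ∀ b s : ℝ, r b + s • w = r (b + s))
    (hmono : ∀ b b' : ℝ, |b| ≤ |b'| → u (r b') ≤ u (r b)) :
    ∫⁻ b : ℝ, ‖fderiv ℝ u (r b) w‖ₑ ≤ 2 * ENNReal.ofReal (u (r 0)) := by
  have hpos := pbs_half u hu0 huc w r hrc hadd hmono
  have hneg := pbs_half u hu0 huc (-w) (fun b => r (-b)) (hrc.comp continuous_neg)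
    (fun b s => by
      show r (-b) + s • (-w) = r (-(b + s))
      rw [smul_neg, ← neg_smul, hadd, neg_add])
    (fun b b' hbb => hmono _ _ (by rwa [abs_neg, abs_neg]))
  have hneg' : ∫⁻ b in Iio (0 : ℝ), ‖fderiv ℝ u (r b) w‖ₑ ≤ ENNReal.ofReal (u (r 0)) := by
    have hcv := (Measure.measurePreserving_neg (volume : Measure ℝ)).setLIntegral_comp_preimage_emb
      (Homeomorph.neg ℝ).measurableEmbedding (fun b => ‖fderiv ℝ u (r b) w‖ₑ) (Iio (0 : ℝ))
    rw [← hcv]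
    have hpre : (Neg.neg : ℝ → ℝ) ⁻¹' Iio (0 : ℝ) = Ioi 0 := by
      ext b
      simp
    rw [hpre]
    have hnegw : ∀ b : ℝ, ‖fderiv ℝ u (r (-b)) (-w)‖ₑ = ‖fderiv ℝ u (r (-b)) w‖ₑ := by
      intro b
      rw [map_neg, enorm_neg]
    simp only [hnegw, neg_zero] at hneg
    exact hneg
  calc ∫⁻ b : ℝ, ‖fderiv ℝ u (r b) w‖ₑ
      = (∫⁻ b in Ioi (0 : ℝ), ‖fderiv ℝ u (r b) w‖ₑ)
          + ∫⁻ b in (Ioi (0 : ℝ))ᶜ, ‖fderiv ℝ u (r b) w‖ₑ :=
        (lintegral_add_compl _ measurableSet_Ioi).symm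
    _ = (∫⁻ b in Ioi (0 : ℝ), ‖fderiv ℝ u (r b) w‖ₑ)
          + ∫⁻ b in Iio (0 : ℝ), ‖fderiv ℝ u (r b) w‖ₑ := by
        rw [compl_Ioi, ← setLIntegral_congr Iio_ae_eq_Iic]
    _ ≤ ENNReal.ofReal (u (r 0)) + ENNReal.ofReal (u (r 0)) := add_le_add hpos hneg'
    _ = 2 * ENNReal.ofReal (u (r 0)) := (two_mul _).symm

/-- The plane, in a general frame. -/
theorem pbs_gen (u : E 2 → ℝ) (hu0 : ∀ x, 0 ≤ u x) (huc : Continuous u) (w : E 2)
    (q : ℝ → ℝ → E 2) (hqc : ∀ a, Continuous (q a))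
    (hadd : ∀ a b s : ℝ, q a b + s • w = q a (b + s))
    (hint : ∀ φ : E 2 → ℝ≥0∞, Measurable φ →
      ∫⁻ x : E 2, φ x = ∫⁻ a : ℝ, ∫⁻ b : ℝ, φ (q a b))
    (hmono : ∀ a b b' : ℝ, |b| ≤ |b'| → u (q a b') ≤ u (q a b)) :
    (∫⁻ x : E 2, ‖fderiv ℝ u x w‖ₑ) ≤ 2 * ∫⁻ t : ℝ, ENNReal.ofReal (u (q t 0)) := by
  have hG : Measurable (fun x : E 2 => ‖fderiv ℝ u x w‖ₑ) :=
    (measurable_fderiv_apply_const ℝ u w).enorm
  rw [hint _ hG, ← lintegral_const_mul' _ _ ENNReal.ofNat_ne_top]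
  exact lintegral_mono (fun a => pbs_line u hu0 huc w (q a) (hqc a) (hadd a) (hmono a))

/-- ROW PB-8. -/
theorem lintegral_coord_le (u : E 2 → ℝ) (hu : BlockAnti u) (hu0 : ∀ x, 0 ≤ u x)
    (huc : Continuous u) :
    (∫⁻ x : E 2, ‖fderiv ℝ u x (pt 0 1)‖ₑ) ≤ 2 * ∫⁻ t : ℝ, ENNReal.ofReal (u (pt t 0)) ∧
    (∫⁻ x : E 2, ‖fderiv ℝ u x (pt 1 0)‖ₑ) ≤ 2 * ∫⁻ t : ℝ, ENNReal.ofReal (u (pt 0 t)) := by
  constructor
  · exact pbs_gen u hu0 huc (pt 0 1) (fun a b => pt a b)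
      (fun a => continuous_pt.comp (continuous_const.prodMk continuous_id))
      (fun a b s => by rw [smul_pt, pt_add]; simp)
      (fun φ hφ => lintegral_E2 φ hφ)
      (fun a b b' hbb => hu _ _ (by simp) (by simpa using hbb))
  · exact pbs_gen u hu0 huc (pt 1 0) (fun a b => pt b a)
      (fun a => continuous_pt.comp (continuous_id.prodMk continuous_const))
      (fun a b s => by rw [smul_pt, pt_add]; simp)
      (fun φ hφ => lintegral_E2' φ hφ)
      (fun a b b' hbb => hu _ _ (by simpa using hbb) (by simp))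

end Vale.Agent.H76.P137B
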