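import Mathlib
import Vale.Agent.H70.P137.Setting
import Vale.Agent.H70.P137.Mono
import Vale.Agent.H70.P137.Lip
import Vale.Agent.H76.P137B.Defs
import Vale.Agent.H76.P137B.Coord
import Vale.Agent.H76.P137B.Mono
import Vale.Agent.H76.P137B.Slab
import Vale.Agent.H76.P137B.Norm
import Vale.Agent.H76.P137B.AxisBound

/-!
# P137: the gradient bound for the centered maximal function of block-decreasing functions
of the plane

Chain: `∫ |∇ Mf| ≤ ∫ |∂₀ Mf| + ∫ |∂₁ Mf| ≤ 2 ∫ Mf(0, t) dt + 2 ∫ Mf(t, 0) dt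
≤ 4 (1 + 24/π) ∫ |∇ f| ≤ 35 ∫ |∇ f|`.
-/

open MeasureTheory Metric Set
open scoped ENNReal NNReal

namespace Vale.Agent.H76.P137B

open Vale.Agent.H70.P137

theorem final_block (f : E 2 → ℝ)
    (hbd : ∀ x y : E 2, |x 0| ≤ |y 0| → |x 1| ≤ |y 1| → f y ≤ f x)
    (hf0 : ∀ x, 0 ≤ f x) (hf1 : ContDiff ℝ 1 f) (K : ℝ≥0) (hK : LipschitzWith K f)
    (hfi : Integrable f) :
    (∀ x, BddAbove (Set.range fun r : {r : ℝ // 0 < r} => ballAvg f x r)) ∧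
      LipschitzWith K (cM f) ∧
      ∫⁻ x : E 2, ‖fderiv ℝ (cM f) x‖ₑ ≤ 35 * ∫⁻ x : E 2, ‖fderiv ℝ f x‖ₑ := by
  have hfc : Continuous f := hf1.continuous
  have hc : ∀ y, f y ≤ f 0 := fun y => hbd 0 y (by simp) (by simp)
  have hcabs : ∀ y, |f y| ≤ f 0 := fun y => by rw [abs_of_nonneg (hf0 y)]; exact hc y
  have hlip : LipschitzWith K (cM f) := cM_lipschitz f K hK (f 0) (hf0 0) hcabs
  refine ⟨fun x => bddAbove_ballAvg f (f 0) (hf0 0) hcabs x, hlip, ?_⟩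
  have hMb : BlockAnti (cM f) := cM_blockAnti f hbd hf0 hfc (f 0) hc
  obtain ⟨hp1, hp0⟩ := lintegral_coord_le (cM f) hMb (cM_nonneg f) hlip.continuous
  obtain ⟨ha0, ha1⟩ := lintegral_cM_axis_le f hbd hf0 hf1 hfi
  set J : ℝ≥0∞ := ∫⁻ x : E 2, ‖fderiv ℝ f x‖ₑ with hJ
  have hpt : ∀ x : E 2, ‖fderiv ℝ (cM f) x‖ₑ
      ≤ ‖fderiv ℝ (cM f) x (pt 1 0)‖ₑ + ‖fderiv ℝ (cM f) x (pt 0 1)‖ₑ :=
    fun x => enorm_le_add_apply _
  have hmeas : Measurable fun x : E 2 => ‖fderiv ℝ (cM f) x (pt 1 0)‖ₑ :=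
    (measurable_fderiv_apply_const ℝ (cM f) (pt 1 0)).enorm
  have hconst : ENNReal.ofReal (1 + 24 / Real.pi) ≤ ENNReal.ofReal (35 / 4) := by
    apply ENNReal.ofReal_le_ofReal
    have hpi : (3.14 : ℝ) < Real.pi := Real.pi_gt_d2
    have hpos : (0 : ℝ) < Real.pi := Real.pi_pos
    rw [show (35 / 4 : ℝ) = 1 + 31 / 4 by norm_num]
    have : 24 / Real.pi ≤ 31 / 4 := by
      rw [div_le_iff₀ hpos]
      nlinarith
    linarith
  have h4 : (4 : ℝ≥0∞) * ENNReal.ofReal (35 / 4) = 35 := by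
    have e4 : (4 : ℝ≥0∞) = ENNReal.ofReal 4 := by simp
    have e35 : (35 : ℝ≥0∞) = ENNReal.ofReal 35 := by simp
    rw [e4, e35, ← ENNReal.ofReal_mul (by norm_num)]
    congr 1
    norm_num
  calc ∫⁻ x : E 2, ‖fderiv ℝ (cM f) x‖ₑ
      ≤ ∫⁻ x : E 2, (‖fderiv ℝ (cM f) x (pt 1 0)‖ₑ + ‖fderiv ℝ (cM f) x (pt 0 1)‖ₑ) :=
        lintegral_mono hpt
    _ = (∫⁻ x : E 2, ‖fderiv ℝ (cM f) x (pt 1 0)‖ₑ)
          + ∫⁻ x : E 2, ‖fderiv ℝ (cM f) x (pt 0 1)‖ₑ := lintegral_add_left hmeas _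
    _ ≤ 2 * (ENNReal.ofReal (1 + 24 / Real.pi) * J)
          + 2 * (ENNReal.ofReal (1 + 24 / Real.pi) * J) :=
        add_le_add (hp0.trans (mul_le_mul_right ha1 _)) (hp1.trans (mul_le_mul_right ha0 _))
    _ = 4 * ENNReal.ofReal (1 + 24 / Real.pi) * J := by ring
    _ ≤ 4 * ENNReal.ofReal (35 / 4) * J := by gcongr
    _ = 35 * J := by rw [h4]

end Vale.Agent.H76.P137B
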