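import Mathlib
import Vale.Agent.H76.P137B.Final

/-!
# P137: the block-decreasing bound with the constant of the proof

The chain of `Final.lean`, stopped one step earlier:
`∫ |∇ Mf| ≤ 4 (1 + 24/π) ∫ |∇ f|`, together with the almost everywhere differentiability of
the Lipschitz function `Mf` (Rademacher).
-/

open MeasureTheory Metric Set
open scoped ENNReal NNReal

namespace Vale.Agent.H76.P137B

open Vale.Agent.H70.P137

theorem final_block_sharp (f : E 2 → ℝ)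
    (hbd : ∀ x y : E 2, |x 0| ≤ |y 0| → |x 1| ≤ |y 1| → f y ≤ f x)
    (hf0 : ∀ x, 0 ≤ f x) (hf1 : ContDiff ℝ 1 f) (K : ℝ≥0) (hK : LipschitzWith K f)
    (hfi : Integrable f) :
    (∀ x, BddAbove (Set.range fun r : {r : ℝ // 0 < r} => ballAvg f x r)) ∧
      LipschitzWith K (cM f) ∧ (∀ᵐ x : E 2, DifferentiableAt ℝ (cM f) x) ∧
      ∫⁻ x : E 2, ‖fderiv ℝ (cM f) x‖ₑ
        ≤ 4 * ENNReal.ofReal (1 + 24 / Real.pi) * ∫⁻ x : E 2, ‖fderiv ℝ f x‖ₑ := by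
  have hfc : Continuous f := hf1.continuous
  have hc : ∀ y, f y ≤ f 0 := fun y => hbd 0 y (by simp) (by simp)
  have hcabs : ∀ y, |f y| ≤ f 0 := fun y => by rw [abs_of_nonneg (hf0 y)]; exact hc y
  have hlip : LipschitzWith K (cM f) := cM_lipschitz f K hK (f 0) (hf0 0) hcabs
  refine ⟨fun x => bddAbove_ballAvg f (f 0) (hf0 0) hcabs x, hlip, hlip.ae_differentiableAt, ?_⟩
  have hMb : BlockAnti (cM f) := cM_blockAnti f hbd hf0 hfc (f 0) hc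
  obtain ⟨hp1, hp0⟩ := lintegral_coord_le (cM f) hMb (cM_nonneg f) hlip.continuous
  obtain ⟨ha0, ha1⟩ := lintegral_cM_axis_le f hbd hf0 hf1 hfi
  set J : ℝ≥0∞ := ∫⁻ x : E 2, ‖fderiv ℝ f x‖ₑ with hJ
  have hpt : ∀ x : E 2, ‖fderiv ℝ (cM f) x‖ₑ
      ≤ ‖fderiv ℝ (cM f) x (pt 1 0)‖ₑ + ‖fderiv ℝ (cM f) x (pt 0 1)‖ₑ :=
    fun x => enorm_le_add_apply _
  have hmeas : Measurable fun x : E 2 => ‖fderiv ℝ (cM f) x (pt 1 0)‖ₑ :=
    (measurable_fderiv_apply_const ℝ (cM f) (pt 1 0)).enorm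
  calc ∫⁻ x : E 2, ‖fderiv ℝ (cM f) x‖ₑ
      ≤ ∫⁻ x : E 2, (‖fderiv ℝ (cM f) x (pt 1 0)‖ₑ + ‖fderiv ℝ (cM f) x (pt 0 1)‖ₑ) :=
        lintegral_mono hpt
    _ = (∫⁻ x : E 2, ‖fderiv ℝ (cM f) x (pt 1 0)‖ₑ)
          + ∫⁻ x : E 2, ‖fderiv ℝ (cM f) x (pt 0 1)‖ₑ := lintegral_add_left hmeas _
    _ ≤ 2 * (ENNReal.ofReal (1 + 24 / Real.pi) * J)
          + 2 * (ENNReal.ofReal (1 + 24 / Real.pi) * J) :=
        add_le_add (hp0.trans (mul_le_mul_right ha1 _)) (hp1.trans (mul_le_mul_right ha0 _))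
    _ = 4 * ENNReal.ofReal (1 + 24 / Real.pi) * J := by ring

end Vale.Agent.H76.P137B
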